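import Vale.Agent.P315.H508.Caps

/-! Failure probabilities and numbers of machines (P315). -/

set_option autoImplicit false

open Filter Finset

namespace Vale.Agent.P315.H508

/-- Polynomial factors are absorbed by one more power of `2 ^ (m 2 ^ s)`. -/
theorem nat_poly_le (K A a : ℕ) : ∀ᶠ m : ℕ in atTop, ∀ s : ℕ, K * m ^ a * A ^ s ≤ 2 ^ (m * 2 ^ s) := by
  filter_upwards [master K A a one_pos (Nat.cast_nonneg K) (Nat.cast_nonneg A)] with m hm s
  have h := hm s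
  have h1 : (1 / 2 : ℝ) ^ s ≤ 1 := pow_le_one₀ (by norm_num) (by norm_num)
  have h2 : (K : ℝ) * (m : ℝ) ^ a * (A : ℝ) ^ s * (1 / 2) ^ (m * 2 ^ s) ≤ 1 := by linarith
  have h3 : (1 / 2 : ℝ) ^ (m * 2 ^ s) * 2 ^ (m * 2 ^ s) = 1 := by rw [← mul_pow]; norm_num
  have h4 : (0 : ℝ) < 2 ^ (m * 2 ^ s) := by positivity
  have h5 := mul_le_mul_of_nonneg_right h2 h4.le
  rw [mul_assoc, h3, mul_one, one_mul] at h5
  exact_mod_cast h5

/-- The probability that all samples of a round fail is below any power of `2 ^ (- m 2 ^ s)`. -/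
theorem fail_small (Cx : ℕ) {Bd : ℝ} (hB : 1 ≤ Bd) : ∀ᶠ m : ℕ in atTop, ∀ s : ℕ,
    (2 : ℝ) ^ (Cx * (m * 2 ^ s)) * (Bd / (Bd + dl m s)) ^ (2 ^ (4 * (m * 2 ^ s))) ≤ th m s := by
  filter_upwards [ev_two_pow_ge (((Cx : ℝ) + 1) * (2 * Bd))] with m hm s
  set N : ℕ := m * 2 ^ s with hN
  have hmN : m ≤ N := by
    rw [hN]; exact Nat.le_mul_of_pos_right m (by positivity)
  have hd : dl m s = (1 / 2) ^ (2 * N) := by unfold dl; congr 1; rw [hN]; ring
  have hd0 : 0 < dl m s := dl_pos m s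
  have hd1 : dl m s ≤ 1 := by rw [hd]; exact pow_le_one₀ (by norm_num) (by norm_num)
  have hB0 : 0 < Bd := by linarith
  have h1 : Bd / (Bd + dl m s) ≤ Real.exp (-(dl m s / (2 * Bd))) := by
    rw [Real.exp_neg, div_le_iff₀ (by positivity)]
    have e1 : Real.exp (dl m s / (2 * Bd)) ≤ 1 + dl m s / Bd := by
      have hx : dl m s / (2 * Bd) ≤ 1 / 2 := by
        rw [div_le_iff₀ (by positivity)]; nlinarith
      have hx0 : 0 ≤ dl m s / (2 * Bd) := by positivity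
      set x := dl m s / (2 * Bd) with hxd
      have hb := Real.exp_bound_div_one_sub_of_interval hx0 (by linarith : x < 1)
      have e2 : dl m s / Bd = 2 * x := by rw [hxd]; field_simp
      rw [e2]
      refine hb.trans ?_
      rw [div_le_iff₀ (by linarith)]
      nlinarith
    have e3 : (0 : ℝ) < Real.exp (dl m s / (2 * Bd)) := Real.exp_pos _
    rw [inv_mul_eq_div, le_div_iff₀ e3]
    calc Bd * Real.exp (dl m s / (2 * Bd)) ≤ Bd * (1 + dl m s / Bd) :=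
          mul_le_mul_of_nonneg_left e1 hB0.le
      _ = Bd + dl m s := by field_simp
  have h2 : (Bd / (Bd + dl m s)) ^ (2 ^ (4 * N)) ≤
      Real.exp (-(2 ^ (2 * N) / (2 * Bd))) := by
    have h3 : (Bd / (Bd + dl m s)) ^ (2 ^ (4 * N)) ≤
        (Real.exp (-(dl m s / (2 * Bd)))) ^ (2 ^ (4 * N)) :=
      pow_le_pow_left₀ (by positivity) h1 _
    refine h3.trans (le_of_eq ?_)
    rw [← Real.exp_nat_mul]
    congr 1
    rw [hd]
    push_cast
    have e4 : (2 : ℝ) ^ (4 * N) * (1 / 2) ^ (2 * N) = 2 ^ (2 * N) := by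
      have : (2 : ℝ) ^ (4 * N) = 2 ^ (2 * N) * 2 ^ (2 * N) := by rw [← pow_add]; congr 1; ring
      rw [this, mul_assoc, ← mul_pow]; norm_num
    calc (2 : ℝ) ^ (4 * N) * -((1 / 2) ^ (2 * N) / (2 * Bd))
        = -((2 : ℝ) ^ (4 * N) * (1 / 2) ^ (2 * N) / (2 * Bd)) := by ring
      _ = -(2 ^ (2 * N) / (2 * Bd)) := by rw [e4]
  have h4 : (2 : ℝ) ^ (Cx * N) ≤ Real.exp (Cx * N) := by
    have e5 : Real.exp ((Cx : ℝ) * N) = (Real.exp 1) ^ (Cx * N) := by
      rw [← Real.exp_nat_mul]; push_cast; ring_nf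
    rw [e5]
    refine pow_le_pow_left₀ (by norm_num) ?_ _
    have := Real.add_one_le_exp (1 : ℝ)
    linarith
  have h5 : Real.exp (-(N : ℝ)) ≤ th m s := by
    unfold th
    rw [← hN]
    have e6 : Real.exp (-(N : ℝ)) = (Real.exp (-1)) ^ N := by
      rw [← Real.exp_nat_mul]; ring_nf
    rw [e6]
    refine pow_le_pow_left₀ (Real.exp_pos _).le ?_ _
    rw [Real.exp_neg, inv_le_comm₀ (Real.exp_pos _) (by norm_num)]
    have := Real.add_one_le_exp (1 : ℝ)
    norm_num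
    linarith
  refine le_trans ?_ h5
  calc (2 : ℝ) ^ (Cx * N) * (Bd / (Bd + dl m s)) ^ (2 ^ (4 * N))
      ≤ Real.exp (Cx * N) * Real.exp (-(2 ^ (2 * N) / (2 * Bd))) :=
        mul_le_mul h4 h2 (by positivity) (Real.exp_pos _).le
    _ = Real.exp (Cx * N + -(2 ^ (2 * N) / (2 * Bd))) := by rw [Real.exp_add]
    _ ≤ Real.exp (-(N : ℝ)) := by
        apply Real.exp_le_exp.2
        have e7 : ((Cx : ℝ) + 1) * N ≤ 2 ^ (2 * N) / (2 * Bd) := by
          rw [le_div_iff₀ (by positivity)]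
          have e8 : (N : ℝ) ≤ 2 ^ N := by exact_mod_cast (Nat.lt_two_pow_self (n := N)).le
          have e9 : ((Cx : ℝ) + 1) * (2 * Bd) ≤ 2 ^ N :=
            hm.trans (pow_le_pow_right₀ (by norm_num) hmN)
          have e10 : (2 : ℝ) ^ (2 * N) = 2 ^ N * 2 ^ N := by rw [← pow_add]; congr 1; ring
          rw [e10]
          calc ((Cx : ℝ) + 1) * N * (2 * Bd) = (((Cx : ℝ) + 1) * (2 * Bd)) * N := by ring
            _ ≤ 2 ^ N * 2 ^ N := mul_le_mul e9 e8 (Nat.cast_nonneg N) (by positivity)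
        linarith

/-- Sum form: the failures of all scales, weighted by polynomial factors. -/
theorem fails_sum (K A : ℝ) (a Cx : ℕ) {Bd ε : ℝ} (hB : 1 ≤ Bd) (hε : 0 < ε) (hK : 0 ≤ K)
    (hA : 0 ≤ A) : ∀ᶠ m : ℕ in atTop, ∀ T : Finset ℕ,
      ∑ s ∈ T, K * (m : ℝ) ^ a * A ^ s * ((2 : ℝ) ^ (Cx * (m * 2 ^ s)) *
        (Bd / (Bd + dl m s)) ^ (2 ^ (4 * (m * 2 ^ s)))) ≤ ε := by
  filter_upwards [fail_small Cx hB, master_sum K A a hε hK hA] with m h1 h2 T
  refine le_trans (sum_le_sum fun s _ => ?_) (h2 T)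
  exact mul_le_mul_of_nonneg_left (h1 s) (by positivity)

end Vale.Agent.P315.H508
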