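import Mathlib

/-! Numerical lemmas for the choice of the parameters (P315): everything is polynomial in `m` and
exponential in the scale `s`, against `2^(m 2^s)`. -/

set_option autoImplicit false

open Filter Finset

namespace Vale.Agent.P315.H508

theorem ev_pow_le (K : ℝ) (a : ℕ) {ε : ℝ} (hε : 0 < ε) :
    ∀ᶠ m : ℕ in atTop, K * (m : ℝ) ^ a * (1 / 2) ^ m ≤ ε := by
  have h1 := (tendsto_pow_const_div_const_pow_of_one_lt a (one_lt_two : (1 : ℝ) < 2)).const_mul K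
  rw [mul_zero] at h1
  filter_upwards [h1.eventually (gt_mem_nhds hε)] with m hm
  have h2 : K * (m : ℝ) ^ a * (1 / 2) ^ m = K * ((m : ℝ) ^ a / 2 ^ m) := by
    rw [one_div_pow]; ring
  rw [h2]
  exact hm.le

theorem ev_two_pow_ge (A : ℝ) : ∀ᶠ m : ℕ in atTop, A ≤ (2 : ℝ) ^ m :=
  (tendsto_pow_atTop_atTop_of_one_lt (one_lt_two : (1 : ℝ) < 2)).eventually_ge_atTop A

theorem ev_nat_ge (c : ℝ) : ∀ᶠ m : ℕ in atTop, c ≤ (m : ℝ) :=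
  (tendsto_natCast_atTop_atTop (R := ℝ)).eventually_ge_atTop c

/-- **Master lemma.** -/
theorem master (K A : ℝ) (a : ℕ) {ε : ℝ} (hε : 0 < ε) (hK : 0 ≤ K) (hA : 0 ≤ A) :
    ∀ᶠ m : ℕ in atTop, ∀ s : ℕ, K * (m : ℝ) ^ a * A ^ s * (1 / 2) ^ (m * 2 ^ s) ≤
      ε * (1 / 2) ^ s := by
  filter_upwards [ev_pow_le K a hε, ev_two_pow_ge (2 * A)] with m h1 h2 s
  have h3 : m + m * s ≤ m * 2 ^ s := by
    have : 1 + s ≤ 2 ^ s := by
      have := Nat.lt_two_pow_self (n := s)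
      omega
    calc m + m * s = m * (1 + s) := by ring
      _ ≤ m * 2 ^ s := Nat.mul_le_mul_left m this
  have h4 : (1 / 2 : ℝ) ^ (m * 2 ^ s) ≤ (1 / 2) ^ m * ((1 / 2) ^ m) ^ s := by
    rw [← pow_mul, ← pow_add]
    exact pow_le_pow_of_le_one (by norm_num) (by norm_num) h3
  have h5 : A ^ s * ((1 / 2 : ℝ) ^ m) ^ s ≤ (1 / 2) ^ s := by
    rw [← mul_pow]
    refine pow_le_pow_left₀ (by positivity) ?_ s
    have h6 : (1 / 2 : ℝ) ^ m * 2 ^ m = 1 := by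
      rw [← mul_pow]; norm_num
    have h7 : (0 : ℝ) < (1 / 2) ^ m := by positivity
    nlinarith
  calc K * (m : ℝ) ^ a * A ^ s * (1 / 2) ^ (m * 2 ^ s)
      ≤ K * (m : ℝ) ^ a * A ^ s * ((1 / 2) ^ m * ((1 / 2) ^ m) ^ s) :=
        mul_le_mul_of_nonneg_left h4 (by positivity)
    _ = (K * (m : ℝ) ^ a * (1 / 2) ^ m) * (A ^ s * ((1 / 2) ^ m) ^ s) := by ring
    _ ≤ ε * (1 / 2) ^ s := mul_le_mul h1 h5 (by positivity) hε.le

theorem sum_half_le (T : Finset ℕ) : ∑ s ∈ T, (1 / 2 : ℝ) ^ s ≤ 2 := by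
  have h := (summable_geometric_two).sum_le_tsum T (fun i _ => by positivity)
  rwa [tsum_geometric_two] at h

/-- Sum form of the master lemma, over any finite set of scales. -/
theorem master_sum (K A : ℝ) (a : ℕ) {ε : ℝ} (hε : 0 < ε) (hK : 0 ≤ K) (hA : 0 ≤ A) :
    ∀ᶠ m : ℕ in atTop, ∀ T : Finset ℕ, ∑ s ∈ T, K * (m : ℝ) ^ a * A ^ s * (1 / 2) ^ (m * 2 ^ s) ≤
      ε := by
  filter_upwards [master K A a (half_pos hε) hK hA] with m hm T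
  calc ∑ s ∈ T, K * (m : ℝ) ^ a * A ^ s * (1 / 2) ^ (m * 2 ^ s)
      ≤ ∑ s ∈ T, ε / 2 * (1 / 2) ^ s := sum_le_sum fun s _ => hm s
    _ = ε / 2 * ∑ s ∈ T, (1 / 2 : ℝ) ^ s := by rw [mul_sum]
    _ ≤ ε / 2 * 2 := mul_le_mul_of_nonneg_left (sum_half_le T) (half_pos hε).le
    _ = ε := by ring

/-- Powers of `1/2` over heights. -/
theorem sum_pow_le (sc : Finset ℕ) (hsc : ∀ h ∈ sc, 1 ≤ h) {x : ℝ} (hx : 0 ≤ x)
    (hx2 : x ≤ 1 / 2) : ∑ h ∈ sc, x ^ h ≤ 2 * x := by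
  have h1 : ∀ h ∈ sc, x ^ h ≤ x * (2 * (1 / 2 : ℝ) ^ h) := by
    intro h hh
    obtain ⟨k, rfl⟩ : ∃ k, h = k + 1 := ⟨h - 1, by have := hsc h hh; omega⟩
    rw [pow_succ, pow_succ]
    have : x ^ k ≤ (1 / 2) ^ k := pow_le_pow_left₀ hx hx2 k
    nlinarith
  have h2 : ∑ h ∈ sc, (1 / 2 : ℝ) ^ h ≤ 1 := by
    have h3 : (0 : ℕ) ∉ sc := fun h0 => by have := hsc 0 h0; omega
    have h4 := sum_half_le (insert 0 sc)
    rw [sum_insert h3, pow_zero] at h4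
    linarith
  calc ∑ h ∈ sc, x ^ h ≤ ∑ h ∈ sc, x * (2 * (1 / 2 : ℝ) ^ h) := sum_le_sum h1
    _ = 2 * x * ∑ h ∈ sc, (1 / 2 : ℝ) ^ h := by
        rw [mul_sum]; exact sum_congr rfl fun _ _ => by ring
    _ ≤ 2 * x * 1 := mul_le_mul_of_nonneg_left h2 (by positivity)
    _ = 2 * x := by ring

/-! ### The area -/

/-- Range of the jitters. -/
def Jt (K1 m : ℕ) : ℕ := K1 * m ^ 2 * 2 ^ m

theorem Jt_cast (K1 m : ℕ) : (Jt K1 m : ℝ) = K1 * (m : ℝ) ^ 2 * 2 ^ m := by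
  simp [Jt]

/-- The lanes cost less than the gain in the exponent. -/
theorem lanes_small (K1 cc : ℕ) (hK1 : 1 ≤ K1) {c : ℝ} (hc : 0 < c) :
    ∀ᶠ m : ℕ in atTop, ∀ (sc : Finset ℕ) (Lam : ℕ → ℕ) (lam : ℝ),
      (∀ h ∈ sc, 1 ≤ h ∧ Lam h ≤ 2 ^ (10 * m * h)) → lam ≤ 1 →
      ∑ h ∈ sc, ((cc : ℝ) + 1) * (Lam h : ℝ) * Real.exp (lam * h) / (((2 ^ (20 * m) : ℕ) : ℝ)) ^ h ≤
        c ^ 2 / (Jt K1 m : ℝ) ^ 2 := by
  have hk : (0 : ℝ) < K1 := by exact_mod_cast hK1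
  filter_upwards [ev_pow_le (2 * ((cc : ℝ) + 1) * (K1 : ℝ) ^ 2) 4 (pow_pos hc 2),
    eventually_ge_atTop 2] with m h1 hm sc Lam lam hL hlam
  have hm1 : 1 ≤ m := by omega
  set x : ℝ := (1 / 2) ^ (9 * m) with hx
  have hx0 : 0 < x := by positivity
  have hxh : x ≤ 1 / 2 := by
    rw [hx]
    calc (1 / 2 : ℝ) ^ (9 * m) ≤ (1 / 2) ^ 1 :=
          pow_le_pow_of_le_one (by norm_num) (by norm_num) (by omega)
      _ = 1 / 2 := by norm_num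
  have hterm : ∀ h ∈ sc, ((cc : ℝ) + 1) * (Lam h : ℝ) * Real.exp (lam * h) /
      (((2 ^ (20 * m) : ℕ) : ℝ)) ^ h ≤ ((cc : ℝ) + 1) * x ^ h := by
    intro h hh
    obtain ⟨hh1, hh2⟩ := hL h hh
    have e1 : (Lam h : ℝ) ≤ 2 ^ (10 * m * h) := by exact_mod_cast hh2
    have e2 : Real.exp (lam * h) ≤ 2 ^ (2 * h) := by
      have : Real.exp (lam * h) ≤ Real.exp (h : ℝ) := by
        apply Real.exp_le_exp.2
        have : (0 : ℝ) ≤ h := Nat.cast_nonneg h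
        nlinarith
      refine this.trans ?_
      have e3 : Real.exp (h : ℝ) = (Real.exp 1) ^ h := by rw [← Real.exp_nat_mul, mul_one]
      rw [e3, pow_mul]
      refine pow_le_pow_left₀ (Real.exp_pos _).le ?_ h
      have := Real.exp_one_lt_d9
      linarith
    rw [div_le_iff₀ (by positivity)]
    push_cast
    have e4 : x ^ h * ((2 : ℝ) ^ (20 * m)) ^ h = 2 ^ (11 * m * h) := by
      have : (2 : ℝ) ^ (20 * m) = 2 ^ (9 * m) * 2 ^ (11 * m) := by rw [← pow_add]; congr 1; ring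
      rw [hx, ← mul_pow, this, ← mul_assoc, ← mul_pow, pow_mul 2 (11 * m) h]
      norm_num
    calc ((cc : ℝ) + 1) * (Lam h : ℝ) * Real.exp (lam * h)
        ≤ ((cc : ℝ) + 1) * 2 ^ (10 * m * h) * 2 ^ (2 * h) := by
          refine mul_le_mul (mul_le_mul_of_nonneg_left e1 (by positivity)) e2
            (Real.exp_pos _).le (by positivity)
      _ = ((cc : ℝ) + 1) * 2 ^ (10 * m * h + 2 * h) := by rw [pow_add]; ring
      _ ≤ ((cc : ℝ) + 1) * 2 ^ (11 * m * h) := by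
          refine mul_le_mul_of_nonneg_left (pow_le_pow_right₀ (by norm_num) ?_) (by positivity)
          nlinarith
      _ = ((cc : ℝ) + 1) * x ^ h * (2 ^ (20 * m)) ^ h := by rw [mul_assoc ((cc : ℝ) + 1), e4]
  have hsum : ∑ h ∈ sc, ((cc : ℝ) + 1) * (Lam h : ℝ) * Real.exp (lam * h) /
      (((2 ^ (20 * m) : ℕ) : ℝ)) ^ h ≤ ((cc : ℝ) + 1) * (2 * x) := by
    refine (sum_le_sum hterm).trans ?_
    rw [← mul_sum]
    exact mul_le_mul_of_nonneg_left (sum_pow_le sc (fun h hh => (hL h hh).1) hx0.le hxh)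
      (by positivity)
  refine hsum.trans ?_
  have hJ : (0 : ℝ) < Jt K1 m := by
    rw [Jt_cast]
    have : (0 : ℝ) < m := by exact_mod_cast hm1
    positivity
  rw [le_div_iff₀ (by positivity), Jt_cast]
  have e5 : x = (1 / 2) ^ (6 * m) * ((1 / 2) ^ m * ((1 / 2) ^ m * (1 / 2) ^ m)) := by
    rw [hx, ← pow_add, ← pow_add, ← pow_add]; congr 1; ring
  have e6 : (1 / 2 : ℝ) ^ m * 2 ^ m = 1 := by rw [← mul_pow]; norm_num
  have e7 : (1 / 2 : ℝ) ^ (6 * m) ≤ 1 := pow_le_one₀ (by norm_num) (by norm_num)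
  have e8 : ((cc : ℝ) + 1) * (2 * x) * (K1 * (m : ℝ) ^ 2 * 2 ^ m) ^ 2 =
      (2 * ((cc : ℝ) + 1) * (K1 : ℝ) ^ 2 * (m : ℝ) ^ 4 * (1 / 2) ^ m) * (1 / 2) ^ (6 * m) *
        (((1 / 2) ^ m * 2 ^ m) * ((1 / 2) ^ m * 2 ^ m)) := by
    rw [e5]; ring
  rw [e8, e6]
  have e9 : 0 ≤ 2 * ((cc : ℝ) + 1) * (K1 : ℝ) ^ 2 * (m : ℝ) ^ 4 * (1 / 2) ^ m := by positivity
  nlinarith

/-- **The exponent of the area.** -/
theorem area_exponent {J n : ℕ} {c C φ N : ℝ} (hJ : 1 ≤ J) (hc : 0 < c)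
    (hC : 0 ≤ C) (hC1 : C ≤ 1 + c ^ 2 / (J : ℝ) ^ 2) (hφ : 0 ≤ φ)
    (hφ1 : φ ≤ Real.exp (-(4 * c / (J : ℝ) ^ 2) * J / 2 + (4 * c / (J : ℝ) ^ 2) ^ 2 * J ^ 2 / 8))
    (hN : N ≤ (J / 2 - c) * n) :
    (C * φ) ^ n * Real.exp (4 * c / (J : ℝ) ^ 2 * N) ≤ Real.exp (-(c ^ 2 / (J : ℝ) ^ 2) * n) := by
  have hJ' : (0 : ℝ) < J := by exact_mod_cast hJ
  have h1 : C ≤ Real.exp (c ^ 2 / (J : ℝ) ^ 2) := by
    have := Real.add_one_le_exp (c ^ 2 / (J : ℝ) ^ 2)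
    linarith
  have h2 : C * φ ≤ Real.exp (c ^ 2 / (J : ℝ) ^ 2 + (-(4 * c / (J : ℝ) ^ 2) * J / 2 +
      (4 * c / (J : ℝ) ^ 2) ^ 2 * J ^ 2 / 8)) := by
    rw [Real.exp_add]
    exact mul_le_mul h1 hφ1 hφ (Real.exp_pos _).le
  have h3 : (C * φ) ^ n ≤ Real.exp (n * (c ^ 2 / (J : ℝ) ^ 2 + (-(4 * c / (J : ℝ) ^ 2) * J / 2 +
      (4 * c / (J : ℝ) ^ 2) ^ 2 * J ^ 2 / 8))) := by
    rw [Real.exp_nat_mul]
    exact pow_le_pow_left₀ (mul_nonneg hC hφ) h2 n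
  have h4 : Real.exp (4 * c / (J : ℝ) ^ 2 * N) ≤
      Real.exp (4 * c / (J : ℝ) ^ 2 * ((J / 2 - c) * n)) :=
    Real.exp_le_exp.2 (mul_le_mul_of_nonneg_left hN (by positivity))
  refine (mul_le_mul h3 h4 (Real.exp_pos _).le (Real.exp_pos _).le).trans ?_
  rw [← Real.exp_add]
  apply Real.exp_le_exp.2
  apply le_of_eq
  field_simp
  ring

end Vale.Agent.P315.H508
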