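import Vale.Agent.P315.H508.CapSum

/-! The sum of the error terms of the machines (`H132.region_h3b`) over classes and scales. -/

set_option autoImplicit false

open Filter Finset

namespace Vale.Agent.P315.H508

/-- Error terms of one machine class in `H132.region_h3b` (without the charge): `cw = cap / w`,
`lE = log |E|`, `D` = length of the blocks, `er` = error of one round; at most `2 ^ (l + 2)`
blocks of the class. -/
noncomputable def capR (cw lE D er : ℝ) (s l : ℕ) : ℝ :=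
  2 ^ s * (cw * lE) + 2 ^ (l + 2) * (D * er)

/-- The error of one round is small against the class. -/
theorem er_le {m s l : ℕ} {CL Cε Cr C7 C1 C2 ex cN ε r cw th' e1 K : ℝ} (hCL : 0 ≤ CL)
    (hCε : 0 ≤ Cε) (hCr : 0 ≤ Cr) (hC1 : 0 ≤ C1) (hC2 : 0 ≤ C2)
    (hex : 0 ≤ ex) (hl : th m s ≤ CL * (1 / 2) ^ l) (hε : ε ≤ Cε * dl m s)
    (hr : r ≤ Cr * dl m s) (hcw0 : 0 ≤ cw) (hcw : cw ≤ C7 * (1 / 2) ^ l)
    (he1 : 4 * th' + e1 / th' ≤ C1 * th m s) (hcN : cN ≤ C2 * (1 / 2) ^ l)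
    (hK : 0 < K) (hK2 : 1 ≤ K * th m s) :
    2 * ε + r + cw * (4 * th' + e1 / th') + ex * cN / K ≤
      (CL * (2 * Cε + Cr) + C7 * C1 + ex * C2) * (th m s * (1 / 2) ^ l) := by
  have ht := th_pos m s
  have hp : (0 : ℝ) < (1 / 2) ^ l := by positivity
  have h1 : dl m s ≤ CL * (th m s * (1 / 2) ^ l) := by
    rw [dl_eq]
    nlinarith
  have h2 : 2 * ε + r ≤ CL * (2 * Cε + Cr) * (th m s * (1 / 2) ^ l) := by
    have := mul_le_mul_of_nonneg_left h1 (by positivity : 0 ≤ 2 * Cε + Cr)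
    nlinarith
  have h3 : cw * (4 * th' + e1 / th') ≤ C7 * C1 * (th m s * (1 / 2) ^ l) := by
    calc cw * (4 * th' + e1 / th') ≤ cw * (C1 * th m s) := mul_le_mul_of_nonneg_left he1 hcw0
      _ ≤ C7 * (1 / 2) ^ l * (C1 * th m s) := mul_le_mul_of_nonneg_right hcw (by positivity)
      _ = _ := by ring
  have h4 : ex * cN / K ≤ ex * C2 * (th m s * (1 / 2) ^ l) := by
    rw [div_le_iff₀ hK]
    calc ex * cN ≤ ex * (C2 * (1 / 2) ^ l) := mul_le_mul_of_nonneg_left hcN hex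
      _ = ex * C2 * (1 / 2) ^ l * 1 := by ring
      _ ≤ ex * C2 * (1 / 2) ^ l * (K * th m s) :=
          mul_le_mul_of_nonneg_left hK2 (by positivity)
      _ = _ := by ring
  have h5 : (CL * (2 * Cε + Cr) + C7 * C1 + ex * C2) * (th m s * (1 / 2) ^ l) =
      CL * (2 * Cε + Cr) * (th m s * (1 / 2) ^ l) + C7 * C1 * (th m s * (1 / 2) ^ l) +
        ex * C2 * (th m s * (1 / 2) ^ l) := by ring
  linarith

/-- Number of classes. -/
theorem card_cls (T : Finset ℕ) {m s q : ℕ} (h : ∀ l ∈ T, l ≤ m * 2 ^ s + q) :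
    (T.card : ℝ) ≤ m * 2 ^ s + (q + 1) := by
  have h1 : T ⊆ range (m * 2 ^ s + q + 1) := fun l hl => mem_range.2 (by have := h l hl; omega)
  have h2 := card_le_card h1
  rw [card_range] at h2
  have h3 : (T.card : ℝ) ≤ ((m * 2 ^ s + q + 1 : ℕ) : ℝ) := by exact_mod_cast h2
  push_cast at h3
  linarith

/-- **The sum of the error terms of all machines.** -/
theorem capR_sum (e0 C7 CE CD Cr CW AW : ℝ) (q : ℕ) {ε : ℝ} (he0 : 0 < e0) (hε : 0 < ε)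
    (hC7 : 0 ≤ C7) (hCE : 0 ≤ CE) (hCD : 0 ≤ CD) (hCr : 0 ≤ Cr) (hCW : 0 ≤ CW) (hAW : 0 ≤ AW) :
    ∀ᶠ m : ℕ in atTop, ∀ (T : Finset ℕ) (Lc : ℕ → Finset ℕ) (cw er : ℕ → ℕ → ℝ) (lE D : ℕ → ℝ),
      (∀ s ∈ T, 1 ≤ s) →
      (∀ s ∈ T, ∀ l ∈ Lc s, (1 / 2 : ℝ) ^ l ≤ CW * AW ^ s * thp e0 m s ∧ l ≤ m * 2 ^ s + q) →
      (∀ s ∈ T, ∀ l ∈ Lc s, 0 ≤ cw s l ∧ cw s l ≤ C7 * (1 / 2) ^ l) →
      (∀ s ∈ T, 0 ≤ lE s ∧ lE s ≤ CE * m * 2 ^ s) →
      (∀ s ∈ T, 0 ≤ D s ∧ D s ≤ CD * (16 ^ s * (m : ℝ) ^ 2)) →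
      (∀ s ∈ T, ∀ l ∈ Lc s, er s l ≤ Cr * (th m s * (1 / 2) ^ l)) →
      ∑ s ∈ T, ∑ l ∈ Lc s, capR (cw s l) (lE s) (D s) (er s l) s l / 2 ^ s ≤ ε := by
  have hε2 : 0 < ε / 2 := by positivity
  filter_upwards [caps_small' e0 (C7 * CE) 2 CW AW 1 he0 hε2 (by positivity)
      (by positivity) hCW hAW,
    master_sum (4 * CD * Cr * (q + 2)) 32 3 hε2 (by positivity) (by positivity),
    eventually_ge_atTop 1] with m h1 h2 hm T Lc cw er lE D hT hL hcw hlE hD her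
  have m1 : (1 : ℝ) ≤ m := by exact_mod_cast hm
  have k1 := h1 T Lc hT (fun s hs l hl => (hL s hs l hl).1)
  have key : ∀ s ∈ T, ∑ l ∈ Lc s, capR (cw s l) (lE s) (D s) (er s l) s l / 2 ^ s ≤
      ∑ l ∈ Lc s, C7 * CE * (m : ℝ) ^ 1 * 2 ^ s * (1 / 2) ^ l +
      4 * CD * Cr * (q + 2) * (m : ℝ) ^ 3 * 32 ^ s * (1 / 2) ^ (m * 2 ^ s) := by
    intro s hs
    have hp : (0 : ℝ) < 2 ^ s := by positivity
    have hp1 : (1 : ℝ) ≤ 2 ^ s := one_le_pow₀ (by norm_num)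
    have ht := th_pos m s
    have e1 : ∀ l ∈ Lc s, capR (cw s l) (lE s) (D s) (er s l) s l / 2 ^ s ≤
        C7 * CE * (m : ℝ) ^ 1 * 2 ^ s * (1 / 2) ^ l +
        4 * CD * Cr * (m : ℝ) ^ 2 * 16 ^ s * th m s := by
      intro l hl
      have hc : (0 : ℝ) < (1 / 2) ^ l := by positivity
      have hc2 : (2 : ℝ) ^ (l + 2) * (1 / 2) ^ l = 4 := by
        rw [pow_add, mul_right_comm, ← mul_pow]; norm_num
      have a1 : cw s l * lE s ≤ C7 * (1 / 2) ^ l * (CE * m * 2 ^ s) :=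
        mul_le_mul (hcw s hs l hl).2 (hlE s hs).2 (hlE s hs).1 (by positivity)
      have a2 : D s * er s l ≤ CD * (16 ^ s * (m : ℝ) ^ 2) * (Cr * (th m s * (1 / 2) ^ l)) := by
        calc D s * er s l ≤ D s * (Cr * (th m s * (1 / 2) ^ l)) :=
              mul_le_mul_of_nonneg_left (her s hs l hl) (hD s hs).1
          _ ≤ _ := mul_le_mul_of_nonneg_right (hD s hs).2 (by positivity)
      have a3 : (2 : ℝ) ^ (l + 2) * (D s * er s l) ≤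
          4 * CD * Cr * (m : ℝ) ^ 2 * 16 ^ s * th m s := by
        calc (2 : ℝ) ^ (l + 2) * (D s * er s l) ≤
            2 ^ (l + 2) * (CD * (16 ^ s * (m : ℝ) ^ 2) * (Cr * (th m s * (1 / 2) ^ l))) :=
              mul_le_mul_of_nonneg_left a2 (by positivity)
          _ = (2 ^ (l + 2) * (1 / 2) ^ l) * (CD * (16 ^ s * (m : ℝ) ^ 2) * (Cr * th m s)) := by
              ring
          _ = _ := by rw [hc2]; ring
      have a4 : 0 ≤ 4 * CD * Cr * (m : ℝ) ^ 2 * 16 ^ s * th m s := by positivity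
      rw [div_le_iff₀ hp]
      unfold capR
      have a5 : 2 ^ s * (cw s l * lE s) ≤ C7 * CE * (m : ℝ) ^ 1 * 2 ^ s * (1 / 2) ^ l * 2 ^ s := by
        calc 2 ^ s * (cw s l * lE s) ≤ 2 ^ s * (C7 * (1 / 2) ^ l * (CE * m * 2 ^ s)) :=
              mul_le_mul_of_nonneg_left a1 hp.le
          _ = _ := by ring
      nlinarith
    refine (sum_le_sum e1).trans ?_
    rw [sum_add_distrib, sum_const, nsmul_eq_mul]
    refine add_le_add le_rfl ?_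
    have hcard := card_cls (Lc s) (fun l hl => (hL s hs l hl).2)
    have b1 : ((Lc s).card : ℝ) ≤ (q + 2) * (m * 2 ^ s) := by
      have : (1 : ℝ) ≤ m * 2 ^ s := by nlinarith
      have hq : (0 : ℝ) ≤ q := Nat.cast_nonneg q
      nlinarith
    have b2 : 0 ≤ 4 * CD * Cr * (m : ℝ) ^ 2 * 16 ^ s * th m s := by positivity
    refine (mul_le_mul_of_nonneg_right b1 b2).trans (le_of_eq ?_)
    unfold th
    have b3 : (32 : ℝ) ^ s = 2 ^ s * 16 ^ s := by rw [← mul_pow]; norm_num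
    rw [b3]
    ring
  calc ∑ s ∈ T, ∑ l ∈ Lc s, capR (cw s l) (lE s) (D s) (er s l) s l / 2 ^ s
      ≤ ∑ s ∈ T, (∑ l ∈ Lc s, C7 * CE * (m : ℝ) ^ 1 * 2 ^ s * (1 / 2) ^ l +
          4 * CD * Cr * (q + 2) * (m : ℝ) ^ 3 * 32 ^ s * (1 / 2) ^ (m * 2 ^ s)) :=
        sum_le_sum key
    _ = ∑ s ∈ T, ∑ l ∈ Lc s, C7 * CE * (m : ℝ) ^ 1 * 2 ^ s * (1 / 2) ^ l +
        ∑ s ∈ T, 4 * CD * Cr * (q + 2) * (m : ℝ) ^ 3 * 32 ^ s * (1 / 2) ^ (m * 2 ^ s) := by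
        rw [sum_add_distrib]
    _ ≤ ε := by
        have := h2 T
        linarith

/-- Precision of the greedy solver: `|E| ≤ 2^(46 m 2^s)`, `2^(50 m 2^s)` picks, harmonic table
with denominator `2^(54 m 2^s)`. -/
theorem err1_small : ∀ᶠ m : ℕ in atTop, ∀ s nE : ℕ, 1 ≤ nE → nE ≤ 2 ^ (46 * (m * 2 ^ s)) →
    (nE : ℝ) / ((2 ^ (50 * (m * 2 ^ s)) : ℕ) : ℝ) * (1 + Real.log
      ((((2 ^ (50 * (m * 2 ^ s)) : ℕ) : ℝ) + nE) / nE)) +
      ((2 ^ (50 * (m * 2 ^ s)) : ℕ) : ℝ) / ((2 ^ (54 * (m * 2 ^ s)) : ℕ) : ℝ) ≤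
      th m s ^ 3 := by
  filter_upwards [master 53 1 1 (ε := 1 / 2) (by norm_num) (by norm_num) (by norm_num),
    eventually_ge_atTop 1] with m h1 hm s nE hE1 hE2
  set N : ℕ := m * 2 ^ s with hN
  have hN1 : 1 ≤ N := Nat.mul_pos hm (by positivity)
  have hth : th m s = (1 / 2) ^ N := rfl
  have hx : (0 : ℝ) < (1 / 2) ^ N := by positivity
  have hx2 : (1 / 2 : ℝ) ^ N * 2 ^ N = 1 := by rw [← mul_pow]; norm_num
  have hE1' : (1 : ℝ) ≤ nE := by exact_mod_cast hE1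
  have hE2' : (nE : ℝ) ≤ 2 ^ (46 * N) := by exact_mod_cast hE2
  have hlog : Real.log ((((2 ^ (50 * N) : ℕ) : ℝ) + nE) / nE) ≤ 51 * N := by
    have e1 : (((2 ^ (50 * N) : ℕ) : ℝ) + nE) / nE ≤ 2 ^ (51 * N) := by
      rw [div_le_iff₀ (by linarith)]
      have e2 : (1 : ℝ) ≤ 2 ^ (50 * N) := one_le_pow₀ (by norm_num)
      have e3 : (2 : ℝ) ^ (51 * N) = 2 ^ (50 * N) * 2 ^ N := by rw [← pow_add]; congr 1; ring
      have e4 : (2 : ℝ) ≤ 2 ^ N := by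
        calc (2 : ℝ) = 2 ^ 1 := by norm_num
          _ ≤ 2 ^ N := pow_le_pow_right₀ (by norm_num) hN1
      push_cast
      rw [e3]
      have e5 : (2 : ℝ) ^ (50 * N) ≤ 2 ^ (50 * N) * nE := by nlinarith
      have e6 : (nE : ℝ) ≤ 2 ^ (50 * N) * nE := by nlinarith
      have e7 : (0 : ℝ) ≤ 2 ^ (50 * N) * nE := by positivity
      nlinarith
    have e8 : (0 : ℝ) < (((2 ^ (50 * N) : ℕ) : ℝ) + nE) / nE := by positivity
    refine (Real.log_le_log e8 e1).trans ?_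
    rw [Real.log_pow]
    have := Real.log_two_lt_d9
    push_cast
    have : (0 : ℝ) ≤ N := Nat.cast_nonneg N
    nlinarith
  have hA : (nE : ℝ) / ((2 ^ (50 * N) : ℕ) : ℝ) ≤ (1 / 2) ^ (4 * N) := by
    rw [div_le_iff₀ (by positivity)]
    push_cast
    have e1 : (1 / 2 : ℝ) ^ (4 * N) * 2 ^ (50 * N) = 2 ^ (46 * N) := by
      have : (2 : ℝ) ^ (50 * N) = 2 ^ (4 * N) * 2 ^ (46 * N) := by rw [← pow_add]; congr 1; ring
      rw [this, ← mul_assoc, ← mul_pow]; norm_num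
    rw [e1]
    exact hE2'
  have hB : ((2 ^ (50 * N) : ℕ) : ℝ) / ((2 ^ (54 * N) : ℕ) : ℝ) = (1 / 2) ^ (4 * N) := by
    rw [Nat.cast_pow, Nat.cast_pow, Nat.cast_ofNat, div_eq_iff (by positivity)]
    have h54 : (2 : ℝ) ^ (54 * N) = 2 ^ (4 * N) * 2 ^ (50 * N) := by
      rw [← pow_add]; congr 1; ring
    have h4N : (1 / 2 : ℝ) ^ (4 * N) * 2 ^ (4 * N) = 1 := by rw [← mul_pow]; norm_num
    rw [h54]
    calc (2 : ℝ) ^ (50 * N) = 1 * 2 ^ (50 * N) := (one_mul _).symm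
      _ = ((1 / 2 : ℝ) ^ (4 * N) * 2 ^ (4 * N)) * 2 ^ (50 * N) := by rw [h4N]
      _ = (1 / 2 : ℝ) ^ (4 * N) * (2 ^ (4 * N) * 2 ^ (50 * N)) := mul_assoc _ _ _
  rw [hB, hth]
  have h2 := h1 s
  rw [pow_one, one_pow, mul_one] at h2
  have h2' : 53 * (m : ℝ) * (1 / 2) ^ N ≤ 1 / 2 * (1 / 2) ^ s := h2
  have h3 : 53 * (N : ℝ) * (1 / 2) ^ N ≤ 1 := by
    have e1 : (N : ℝ) = m * 2 ^ s := by rw [hN]; push_cast; ring
    have e2 : (1 / 2 : ℝ) ^ s * 2 ^ s = 1 := by rw [← mul_pow]; norm_num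
    rw [e1]
    have e3 := mul_le_mul_of_nonneg_right h2' (by positivity : (0 : ℝ) ≤ 2 ^ s)
    have e4 : 1 / 2 * (1 / 2 : ℝ) ^ s * 2 ^ s = 1 / 2 := by rw [mul_assoc, e2, mul_one]
    rw [e4] at e3
    nlinarith
  have h4 : (1 / 2 : ℝ) ^ (4 * N) = ((1 / 2) ^ N) ^ 3 * (1 / 2) ^ N := by
    rw [← pow_mul, ← pow_add]; congr 1; ring
  have hN1' : (1 : ℝ) ≤ N := by exact_mod_cast hN1
  have hlog0 : 0 ≤ Real.log ((((2 ^ (50 * N) : ℕ) : ℝ) + nE) / nE) := by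
    apply Real.log_nonneg
    rw [one_le_div (by linarith)]
    have : (0 : ℝ) ≤ ((2 ^ (50 * N) : ℕ) : ℝ) := Nat.cast_nonneg _
    linarith
  calc (nE : ℝ) / ((2 ^ (50 * N) : ℕ) : ℝ) *
        (1 + Real.log ((((2 ^ (50 * N) : ℕ) : ℝ) + nE) / nE)) + (1 / 2) ^ (4 * N)
      ≤ (1 / 2) ^ (4 * N) * (1 + 51 * N) + (1 / 2) ^ (4 * N) := by
        refine add_le_add (mul_le_mul hA (by linarith) (by linarith) (by positivity)) le_rfl
    _ ≤ (1 / 2) ^ (4 * N) * (53 * N) := by nlinarith [show (0 : ℝ) < (1 / 2) ^ (4 * N) by positivity]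
    _ = ((1 / 2) ^ N) ^ 3 * (53 * N * (1 / 2) ^ N) := by rw [h4]; ring
    _ ≤ ((1 / 2) ^ N) ^ 3 * 1 := mul_le_mul_of_nonneg_left h3 (by positivity)
    _ = ((1 / 2) ^ N) ^ 3 := mul_one _

end Vale.Agent.P315.H508
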