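import Vale.Agent.P315.H508.CapR
import Vale.Agent.P315.H808.QT2
import Vale.Agent.P315.H659.Fail

/-! The hypotheses (CAP) and (FAIL) of `H808.qt_value` from bounds for one top. -/

set_option autoImplicit false

open Filter Finset

namespace Vale.Agent.P315.H508

open Vale.Agent.P315.Acc
open Vale.Agent.P315.H731 (av av_add av_const_mul av_sum av_mono)

section

variable {X : Type} [Fintype X] [Nonempty X]

theorem na_le (S : Sys X) (s : ℕ) : (S.na s : ℝ) ≤ S.n / 2 ^ s := by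
  unfold Sys.na
  rw [le_div_iff₀ (by positivity)]
  exact_mod_cast Nat.div_mul_le_self _ _

theorem TA_le (S : Sys X) (s : ℕ) {F : ℕ → X → ℝ} {c : ℝ} (hc : 0 ≤ c)
    (h : ∀ a, a < S.na s → ∀ x, F a x ≤ c) : H295.TA S s F ≤ S.n * (c / 2 ^ s) := by
  have h1 : H295.TA S s F ≤ S.na s * c := by
    unfold H295.TA
    refine (Finset.sum_le_card_nsmul (range (S.na s)) _ c fun a ha => ?_).trans
      (le_of_eq (by rw [card_range, nsmul_eq_mul]))
    have := EE_mono S.hw (g := fun _ => c) (h a (mem_range.1 ha))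
    rw [EE_const S.hw] at this
    exact this
  refine h1.trans ?_
  have h2 := mul_le_mul_of_nonneg_right (na_le S s) hc
  refine h2.trans (le_of_eq ?_)
  ring

/-- (CAP). -/
theorem caps_plug (S : Sys X) {F : ℕ → ℕ → ℕ → X → ℝ} {c : ℕ → ℝ} {ε : ℝ}
    (hc : ∀ s ∈ Icc 1 S.smax, 0 ≤ c s)
    (h : ∀ o < S.D S.smax, ∀ s ∈ Icc 1 S.smax, ∀ a < S.na s, ∀ x, F o s a x ≤ c s)
    (hs : ∑ s ∈ Icc 1 S.smax, c s / 2 ^ s ≤ ε) :
    ∑ s ∈ Icc 1 S.smax, S.avO (fun o => H295.TA S s (fun a x => F o s a x)) ≤ ε * S.n := by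
  have h1 : ∀ s ∈ Icc 1 S.smax, S.avO (fun o => H295.TA S s (fun a x => F o s a x)) ≤
      S.n * (c s / 2 ^ s) := by
    intro s hs
    refine (H241.avO_mono (g := fun _ => S.n * (c s / 2 ^ s)) S fun o ho => ?_).trans
      (le_of_eq (H241.avO_const S _))
    exact TA_le S s (hc s hs) (fun a ha x => h o ho s hs a ha x)
  refine (sum_le_sum h1).trans ?_
  rw [← mul_sum, mul_comm]
  exact mul_le_mul_of_nonneg_right hs (Nat.cast_nonneg _)

end

section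

variable {X : Type} [Fintype X] [Nonempty X] {Ω : Type} [Fintype Ω] [Nonempty Ω]

/-- (FAIL), for a family of systems with the same weights and the same number of levels. -/
theorem fails_plug (S : Ω → Sys X) (w : X → ℝ) (hw : ∀ x, 0 < w x) (n smax : ℕ)
    (hSw : ∀ ω, (S ω).w = w) (hSn : ∀ ω, (S ω).n = n)
    {F : Ω → ℕ → ℕ → X → Prop} {p : ℕ → ℝ} {ε : ℝ} (hp0 : ∀ s ∈ Icc 1 smax, 0 ≤ p s)
    (hF : ∀ s ∈ Icc 1 smax, ∀ a < n / 2 ^ s, ∀ x, av (fun ω => ind (F ω s a x)) ≤ p s)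
    (hs : ∑ s ∈ Icc 1 smax, p s ≤ ε) :
    av (fun ω => ∑ s ∈ Icc 1 smax, 2 ^ s * H295.TA (S ω) s (fun a x => ind (F ω s a x))) ≤
      ε * n := by
  have h1 : (fun ω => ∑ s ∈ Icc 1 smax, 2 ^ s * H295.TA (S ω) s (fun a x => ind (F ω s a x))) =
      fun ω => ∑ s ∈ Icc 1 smax, (2 : ℝ) ^ s * ∑ a ∈ range (n / 2 ^ s),
        EE w (fun x => ind (F ω s a x)) := by
    funext ω
    refine sum_congr rfl fun s _ => ?_
    unfold H295.TA Sys.E Sys.na
    rw [hSw, hSn]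
  rw [h1]
  refine (H659.fail_total hw (Icc 1 smax) (fun s => n / 2 ^ s) (fun s => 2 ^ s)
    (fun s _ => by positivity) F p hF).trans ?_
  have h2 : ∀ s ∈ Icc 1 smax, (2 : ℝ) ^ s * (((n / 2 ^ s : ℕ) : ℝ) * p s) ≤ n * p s := by
    intro s hs
    have h3 : (2 : ℝ) ^ s * ((n / 2 ^ s : ℕ) : ℝ) ≤ n := by
      exact_mod_cast Nat.mul_div_le n (2 ^ s)
    have := mul_le_mul_of_nonneg_right h3 (hp0 s hs)
    linarith
  refine (sum_le_sum h2).trans ?_
  rw [← mul_sum, mul_comm]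
  exact mul_le_mul_of_nonneg_right hs (Nat.cast_nonneg _)

end

/-- Scale invariance of the failure probability of one sample. -/
theorem ratio_le {B d Bd δ : ℝ} (hB : 0 ≤ B) (hd : 0 < d) (hBd : 0 < Bd) (hδ : 0 ≤ δ)
    (h : B * δ ≤ Bd * d) : B / (B + d) ≤ Bd / (Bd + δ) := by
  rw [div_le_div_iff₀ (by positivity) (by positivity)]
  nlinarith

/-- The numbers of the failure term: `Q` machines, `r` rounds each, `2 ^ (4 m 2^s)` samples. -/
theorem fail_num (Cx : ℕ) {Bd ε : ℝ} (hB : 1 ≤ Bd) (hε : 0 < ε) : ∀ᶠ m : ℕ in atTop,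
    ∀ (T : Finset ℕ) (Qc r : ℕ → ℕ) (B d : ℕ → ℝ), (∀ s ∈ T, 0 ≤ B s) → (∀ s ∈ T, 0 < d s) →
      (∀ s ∈ T, B s * dl m s ≤ Bd * d s) → (∀ s ∈ T, Qc s * r s ≤ 2 ^ (Cx * (m * 2 ^ s))) →
      ∑ s ∈ T, (Qc s : ℝ) * (r s * (B s / (B s + d s)) ^ (2 ^ (4 * (m * 2 ^ s)))) ≤ ε := by
  filter_upwards [fails_sum 1 1 0 Cx hB hε zero_le_one zero_le_one] with m hm T Qc r B d hB0 hd hBd
    hQ
  refine le_trans (sum_le_sum fun s hs => ?_) (hm T)
  have h1 := ratio_le (hB0 s hs) (hd s hs) (by linarith) (dl_pos m s).le (hBd s hs)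
  have h0 : 0 ≤ B s / (B s + d s) :=
    div_nonneg (hB0 s hs) (by have := hB0 s hs; have := hd s hs; linarith)
  have h2 : (B s / (B s + d s)) ^ (2 ^ (4 * (m * 2 ^ s))) ≤
      (Bd / (Bd + dl m s)) ^ (2 ^ (4 * (m * 2 ^ s))) := pow_le_pow_left₀ h0 h1 _
  have h3 : ((Qc s : ℝ) * r s) ≤ 2 ^ (Cx * (m * 2 ^ s)) := by exact_mod_cast hQ s hs
  rw [pow_zero, one_pow, one_mul, one_mul, one_mul, ← mul_assoc]
  exact mul_le_mul h3 h2 (pow_nonneg h0 _) (by positivity)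

end Vale.Agent.P315.H508
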