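import Vale.Agent.P315.H508.Fails

/-! The sum of the capacities of all machines (P315). -/

set_option autoImplicit false

open Filter Finset

namespace Vale.Agent.P315.H508

/-- Capacities proportional to the cap; classes below `CW AW^s thp`. -/
theorem caps_small' (e0 K A CW AW : ℝ) (a : ℕ) {ε : ℝ} (he0 : 0 < e0) (hε : 0 < ε) (hK : 0 ≤ K)
    (hA : 0 ≤ A) (hCW : 0 ≤ CW) (hAW : 0 ≤ AW) :
    ∀ᶠ m : ℕ in atTop, ∀ (T : Finset ℕ) (Lc : ℕ → Finset ℕ),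
      (∀ s ∈ T, 1 ≤ s) → (∀ s ∈ T, ∀ l ∈ Lc s, (1 / 2 : ℝ) ^ l ≤ CW * AW ^ s * thp e0 m s) →
      ∑ s ∈ T, ∑ l ∈ Lc s, K * (m : ℝ) ^ a * A ^ s * (1 / 2) ^ l ≤ ε := by
  filter_upwards [master_thp e0 (2 * K * CW) (A * AW) a he0 (half_pos hε) (by positivity)
    (by positivity)] with m hm T Lc hT hL
  refine card_half T hε.le fun s hs => ?_
  have h0 : 0 ≤ thp e0 m s := by unfold thp; have := th_pos m (s - 1); positivity
  have h1 := sum_cls_le (Lc s) (x := CW * AW ^ s * thp e0 m s) (by positivity) (hL s hs)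
  rw [← mul_sum]
  have h2 : 0 ≤ K * (m : ℝ) ^ a * A ^ s := by positivity
  have h3 := mul_le_mul_of_nonneg_left h1 h2
  have h4 := hm s (hT s hs)
  calc _ ≤ K * (m : ℝ) ^ a * A ^ s * (2 * (CW * AW ^ s * thp e0 m s)) := h3
    _ = 2 * K * CW * (m : ℝ) ^ a * (A * AW) ^ s * thp e0 m s := by rw [mul_pow]; ring
    _ ≤ _ := h4

/-- Cap of one machine class in `H330.h3b`: `c = (1/2)^l`, `h = 2^s`, `lE = log |E|`,
`a1 = log (1 - ζ)⁻¹`, `D` = length of the blocks, `del` = error of the lanes, `e` = error of the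
solver per row. -/
noncomputable def capT (C7 lE a1 D del e : ℝ) (s l : ℕ) : ℝ :=
  3 / 2 * (2 ^ s * (C7 * (1 / 2) ^ l) * lE + 2 * C7 * 2 ^ s * a1 +
    2 / (1 / 2) ^ l * D * (del + C7 * (1 / 2) ^ l * e))

/-- **The sum of all capacities is small.** -/
theorem capT_sum (e0 C7 CE CA CD Cd CW AW : ℝ) {ε : ℝ} (he0 : 0 < e0) (hε : 0 < ε)
    (hC7 : 0 ≤ C7) (hCE : 0 ≤ CE) (hCA : 0 ≤ CA) (hCD : 0 ≤ CD) (hCd : 0 ≤ Cd)
    (hCW : 0 ≤ CW) (hAW : 0 ≤ AW) :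
    ∀ᶠ m : ℕ in atTop, ∀ (T : Finset ℕ) (Lc : ℕ → Finset ℕ) (lE a1 D del e : ℕ → ℝ),
      (∀ s ∈ T, 1 ≤ s) →
      (∀ s ∈ T, ∀ l ∈ Lc s, (1 / 2 : ℝ) ^ l ≤ CW * AW ^ s * thp e0 m s ∧
        th m s / 2 ≤ (1 / 2 : ℝ) ^ l) →
      (∀ s ∈ T, lE s ≤ CE * m * 2 ^ s) → (∀ s ∈ T, a1 s ≤ CA * th m s) →
      (∀ s ∈ T, 0 ≤ D s ∧ D s ≤ CD * (16 ^ s * (m : ℝ) ^ 2)) →
      (∀ s ∈ T, 0 ≤ del s ∧ del s ≤ Cd * dl m s) → (∀ s ∈ T, 0 ≤ e s ∧ e s ≤ Cd * dl m s) →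
      ∑ s ∈ T, ∑ l ∈ Lc s, capT C7 (lE s) (a1 s) (D s) (del s) (e s) s l / 2 ^ s ≤ ε := by
  have hε3 : 0 < ε / 3 := by positivity
  filter_upwards [caps_small' e0 (3 / 2 * (C7 * CE)) 2 CW AW 1 he0 hε3 (by positivity)
      (by positivity) hCW hAW,
    errs_small (3 / 2 * (2 * C7 * CA)) 1 0 hε3 (by positivity) (by positivity),
    errs_small (3 / 2 * (4 * CD * (Cd + C7 * Cd))) 16 2 hε3 (by positivity) (by positivity)]
    with m h1 h2 h3 T Lc lE a1 D del e hT hL hlE ha1 hD hdel he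
  have k1 := h1 T Lc hT (fun s hs l hl => (hL s hs l hl).1)
  have k2 := h2 T Lc (fun s hs l hl => (hL s hs l hl).2)
  have k3 := h3 T Lc (fun s hs l hl => (hL s hs l hl).2)
  have key : ∀ s ∈ T, ∀ l ∈ Lc s, capT C7 (lE s) (a1 s) (D s) (del s) (e s) s l / 2 ^ s ≤
      3 / 2 * (C7 * CE) * (m : ℝ) ^ 1 * 2 ^ s * (1 / 2) ^ l +
      3 / 2 * (2 * C7 * CA) * (m : ℝ) ^ 0 * 1 ^ s * th m s +
      3 / 2 * (4 * CD * (Cd + C7 * Cd)) * (m : ℝ) ^ 2 * 16 ^ s * th m s := by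
    intro s hs l hl
    have hp : (0 : ℝ) < 2 ^ s := by positivity
    have hp1 : (1 : ℝ) ≤ 2 ^ s := one_le_pow₀ (by norm_num)
    have hc : (0 : ℝ) < (1 / 2) ^ l := by positivity
    have hc1 : (1 / 2 : ℝ) ^ l ≤ 1 := pow_le_one₀ (by norm_num) (by norm_num)
    have ht := th_pos m s
    have hth := (hL s hs l hl).2
    have e1 : 2 / (1 / 2 : ℝ) ^ l ≤ 4 / th m s := by
      rw [div_le_div_iff₀ hc ht]
      linarith
    have e2 : del s + C7 * (1 / 2) ^ l * e s ≤ (Cd + C7 * Cd) * dl m s := by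
      have a2 := (hdel s hs).2
      have a3 : C7 * (1 / 2) ^ l * e s ≤ C7 * 1 * (Cd * dl m s) :=
        mul_le_mul (mul_le_mul_of_nonneg_left hc1 hC7) (he s hs).2 (he s hs).1 (by positivity)
      linarith
    have e2' : 0 ≤ del s + C7 * (1 / 2) ^ l * e s := by
      have := (hdel s hs).1
      have := (he s hs).1
      positivity
    have e3 : 2 / (1 / 2 : ℝ) ^ l * D s * (del s + C7 * (1 / 2) ^ l * e s) ≤
        4 * CD * (Cd + C7 * Cd) * (m : ℝ) ^ 2 * 16 ^ s * th m s := by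
      have a4 : 2 / (1 / 2 : ℝ) ^ l * D s ≤ 4 / th m s * (CD * (16 ^ s * (m : ℝ) ^ 2)) :=
        mul_le_mul e1 (hD s hs).2 (hD s hs).1 (by positivity)
      have a5 : 2 / (1 / 2 : ℝ) ^ l * D s * (del s + C7 * (1 / 2) ^ l * e s) ≤
          4 / th m s * (CD * (16 ^ s * (m : ℝ) ^ 2)) * ((Cd + C7 * Cd) * dl m s) :=
        mul_le_mul a4 e2 e2' (by positivity)
      refine a5.trans (le_of_eq ?_)
      rw [dl_eq]
      field_simp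
    have e4 : 2 ^ s * (C7 * (1 / 2) ^ l) * lE s ≤ 2 ^ s * (C7 * (1 / 2) ^ l) * (CE * m * 2 ^ s) :=
      mul_le_mul_of_nonneg_left (hlE s hs) (by positivity)
    have e5 : 2 * C7 * 2 ^ s * a1 s ≤ 2 * C7 * 2 ^ s * (CA * th m s) :=
      mul_le_mul_of_nonneg_left (ha1 s hs) (by positivity)
    have e6 : 0 ≤ 4 * CD * (Cd + C7 * Cd) * (m : ℝ) ^ 2 * 16 ^ s * th m s := by positivity
    rw [div_le_iff₀ hp]
    unfold capT
    have e7 : 4 * CD * (Cd + C7 * Cd) * (m : ℝ) ^ 2 * 16 ^ s * th m s ≤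
        4 * CD * (Cd + C7 * Cd) * (m : ℝ) ^ 2 * 16 ^ s * th m s * 2 ^ s := by nlinarith
    rw [pow_one, pow_zero, one_pow]
    nlinarith
  calc ∑ s ∈ T, ∑ l ∈ Lc s, capT C7 (lE s) (a1 s) (D s) (del s) (e s) s l / 2 ^ s
      ≤ ∑ s ∈ T, ∑ l ∈ Lc s, (3 / 2 * (C7 * CE) * (m : ℝ) ^ 1 * 2 ^ s * (1 / 2) ^ l +
          3 / 2 * (2 * C7 * CA) * (m : ℝ) ^ 0 * 1 ^ s * th m s +
          3 / 2 * (4 * CD * (Cd + C7 * Cd)) * (m : ℝ) ^ 2 * 16 ^ s * th m s) :=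
        sum_le_sum fun s hs => sum_le_sum fun l hl => key s hs l hl
    _ = ∑ s ∈ T, ∑ l ∈ Lc s, 3 / 2 * (C7 * CE) * (m : ℝ) ^ 1 * 2 ^ s * (1 / 2) ^ l +
        ∑ s ∈ T, ∑ l ∈ Lc s, 3 / 2 * (2 * C7 * CA) * (m : ℝ) ^ 0 * 1 ^ s * th m s +
        ∑ s ∈ T, ∑ l ∈ Lc s, 3 / 2 * (4 * CD * (Cd + C7 * Cd)) * (m : ℝ) ^ 2 * 16 ^ s * th m s := by
        simp only [sum_add_distrib]
    _ ≤ ε := by linarith

/-- The restart charge: `3 C7 log ζ⁻¹ ≤ CL m 2^s` for `ζ = (1/2)^(m 2^s)`. -/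
theorem log_th_inv (m s : ℕ) : Real.log (th m s)⁻¹ ≤ m * 2 ^ s := by
  unfold th
  rw [← inv_pow, Real.log_pow]
  have h1 : Real.log ((1 / 2 : ℝ)⁻¹) ≤ 1 := by
    have : ((1 / 2 : ℝ)⁻¹) = 2 := by norm_num
    rw [this]
    have := Real.log_two_lt_d9
    linarith
  push_cast
  have h2 : (0 : ℝ) ≤ m * 2 ^ s := by positivity
  nlinarith

theorem log_one_sub_th {m s : ℕ} (hm : 1 ≤ m) : Real.log (1 - th m s)⁻¹ ≤ 2 * th m s := by
  have h0 := th_pos m s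
  have h1 : th m s ≤ 1 / 2 := by
    unfold th
    calc (1 / 2 : ℝ) ^ (m * 2 ^ s) ≤ (1 / 2) ^ 1 :=
          pow_le_pow_of_le_one (by norm_num) (by norm_num) (Nat.mul_pos hm (by positivity))
      _ = 1 / 2 := by norm_num
  have h2 : (1 - th m s)⁻¹ ≤ 1 + 2 * th m s := by
    rw [inv_le_iff_one_le_mul₀ (by linarith)]
    nlinarith
  have h3 : 0 < (1 - th m s)⁻¹ := by rw [inv_pos]; linarith
  have h4 := Real.log_le_sub_one_of_pos h3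
  linarith

end Vale.Agent.P315.H508
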