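import Vale.Agent.P315.H508.Master

/-! Thresholds, classes and capacities (P315). -/

set_option autoImplicit false

open Filter Finset

namespace Vale.Agent.P315.H508

/-- Thresholds: `B ^ (-(2 ^ s))`, `B = 2 ^ m`. -/
noncomputable def th (m s : ℕ) : ℝ := (1 / 2) ^ (m * 2 ^ s)
/-- Upper thresholds. -/
noncomputable def thp (e0 : ℝ) (m s : ℕ) : ℝ := 16 * 4 ^ s / e0 * th m (s - 1)
/-- Nets: `B ^ (-(2 * 2 ^ s))`. -/
noncomputable def dl (m s : ℕ) : ℝ := (1 / 2) ^ (2 * m * 2 ^ s)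
/-- Lengths of the blocks. -/
def Dl (m s : ℕ) : ℕ := 16 ^ s * m ^ 2

theorem th_pos (m s : ℕ) : 0 < th m s := by unfold th; positivity
theorem dl_pos (m s : ℕ) : 0 < dl m s := by unfold dl; positivity
theorem th_le_one (m s : ℕ) : th m s ≤ 1 := pow_le_one₀ (by norm_num) (by norm_num)
theorem dl_eq (m s : ℕ) : dl m s = th m s ^ 2 := by
  unfold dl th; rw [← pow_mul]; congr 1; ring
theorem th_sq (m s : ℕ) : th m (s + 1) = th m s ^ 2 := by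
  unfold th; rw [← pow_mul]; congr 1; ring
theorem Dl_cast (m s : ℕ) : (Dl m s : ℝ) = 16 ^ s * (m : ℝ) ^ 2 := by simp [Dl]
theorem Dl_succ (m s : ℕ) : Dl m (s + 1) = 16 * Dl m s := by unfold Dl; ring

/-- Sum over a set of classes. -/
theorem sum_cls_le (T : Finset ℕ) {x : ℝ} (hx : 0 ≤ x) (h : ∀ l ∈ T, (1 / 2 : ℝ) ^ l ≤ x) :
    ∑ l ∈ T, (1 / 2 : ℝ) ^ l ≤ 2 * x := by
  rcases T.eq_empty_or_nonempty with rfl | hT
  · simpa using hx
  · set l0 := T.min' hT with hl0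
    have h0 : (1 / 2 : ℝ) ^ l0 ≤ x := h l0 (T.min'_mem hT)
    have h1 : ∀ l ∈ T, (1 / 2 : ℝ) ^ l = (1 / 2) ^ l0 * (1 / 2) ^ (l - l0) := by
      intro l hl
      rw [← pow_add]; congr 1
      have := T.min'_le l hl
      omega
    rw [sum_congr rfl h1, ← mul_sum]
    have h2 : ∑ l ∈ T, (1 / 2 : ℝ) ^ (l - l0) = ∑ k ∈ T.image (fun l => l - l0), (1 / 2 : ℝ) ^ k := by
      rw [sum_image]
      intro a ha b hb hab
      have e1 := T.min'_le a ha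
      have e2 := T.min'_le b hb
      simp only at hab
      omega
    rw [h2]
    have h3 := sum_half_le (T.image (fun l => l - l0))
    have h4 : (0 : ℝ) ≤ (1 / 2) ^ l0 := by positivity
    nlinarith

/-- Number of classes. -/
theorem card_cls_le (T : Finset ℕ) (N : ℕ) (h : ∀ l ∈ T, (1 / 2 : ℝ) ^ (N + 1) ≤ (1 / 2) ^ l) :
    T.card ≤ N + 2 := by
  have h1 : T ⊆ range (N + 2) := by
    intro l hl
    rw [mem_range]
    by_contra hc
    have h2 : (1 / 2 : ℝ) ^ l ≤ (1 / 2) ^ (N + 2) :=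
      pow_le_pow_of_le_one (by norm_num) (by norm_num) (by omega)
    have h3 := (h l hl).trans h2
    have h4 : (1 / 2 : ℝ) ^ (N + 2) = (1 / 2) ^ (N + 1) * (1 / 2) := pow_succ _ _
    have h5 : (0 : ℝ) < (1 / 2) ^ (N + 1) := by positivity
    linarith
  simpa using card_le_card h1

/-- Master lemma with the upper thresholds: scales `s ≥ 1`. -/
theorem master_thp (e0 K A : ℝ) (a : ℕ) {ε : ℝ} (he0 : 0 < e0) (hε : 0 < ε) (hK : 0 ≤ K)
    (hA : 0 ≤ A) : ∀ᶠ m : ℕ in atTop, ∀ s : ℕ, 1 ≤ s →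
      K * (m : ℝ) ^ a * A ^ s * thp e0 m s ≤ ε * (1 / 2) ^ s := by
  filter_upwards [master (K * (A * 64 / e0)) (A * 4) a (half_pos hε) (by positivity)
    (by positivity)] with m hm s hs
  obtain ⟨t, rfl⟩ : ∃ t, s = t + 1 := ⟨s - 1, by omega⟩
  have h := hm t
  have e1 : K * (m : ℝ) ^ a * A ^ (t + 1) * thp e0 m (t + 1) =
      K * (A * 64 / e0) * (m : ℝ) ^ a * (A * 4) ^ t * (1 / 2) ^ (m * 2 ^ t) := by
    unfold thp th
    rw [Nat.add_sub_cancel, mul_pow, pow_succ, pow_succ]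
    ring
  rw [e1, pow_succ]
  linarith

theorem card_half (T : Finset ℕ) {f : ℕ → ℝ} {ε : ℝ} (hε : 0 ≤ ε)
    (h : ∀ s ∈ T, f s ≤ ε / 2 * (1 / 2) ^ s) : ∑ s ∈ T, f s ≤ ε := by
  calc ∑ s ∈ T, f s ≤ ∑ s ∈ T, ε / 2 * (1 / 2 : ℝ) ^ s := sum_le_sum h
    _ = ε / 2 * ∑ s ∈ T, (1 / 2 : ℝ) ^ s := by rw [mul_sum]
    _ ≤ ε / 2 * 2 := mul_le_mul_of_nonneg_left (sum_half_le T) (by linarith)
    _ = ε := by ring

/-- Capacities proportional to the cap. -/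
theorem caps_small (e0 K A : ℝ) (a : ℕ) {ε : ℝ} (he0 : 0 < e0) (hε : 0 < ε) (hK : 0 ≤ K)
    (hA : 0 ≤ A) : ∀ᶠ m : ℕ in atTop, ∀ (T : Finset ℕ) (Lc : ℕ → Finset ℕ),
      (∀ s ∈ T, 1 ≤ s) → (∀ s ∈ T, ∀ l ∈ Lc s, (1 / 2 : ℝ) ^ l ≤ 4 * thp e0 m s) →
      ∑ s ∈ T, ∑ l ∈ Lc s, K * (m : ℝ) ^ a * A ^ s * (1 / 2) ^ l ≤ ε := by
  filter_upwards [master_thp e0 (8 * K) A a he0 (half_pos hε) (by positivity) hA]
    with m hm T Lc hT hL
  refine card_half T hε.le fun s hs => ?_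
  have h0 : 0 ≤ thp e0 m s := by unfold thp; have := th_pos m (s - 1); positivity
  have h1 := sum_cls_le (Lc s) (x := 4 * thp e0 m s) (by linarith) (hL s hs)
  rw [← mul_sum]
  have h2 : 0 ≤ K * (m : ℝ) ^ a * A ^ s := by positivity
  have h3 := mul_le_mul_of_nonneg_left h1 h2
  have h4 := hm s (hT s hs)
  calc _ ≤ K * (m : ℝ) ^ a * A ^ s * (2 * (4 * thp e0 m s)) := h3
    _ = 8 * K * (m : ℝ) ^ a * A ^ s * thp e0 m s := by ring
    _ ≤ _ := h4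

/-- Errors proportional to `th`, once per class. -/
theorem errs_small (K A : ℝ) (a : ℕ) {ε : ℝ} (hε : 0 < ε) (hK : 0 ≤ K)
    (hA : 0 ≤ A) : ∀ᶠ m : ℕ in atTop, ∀ (T : Finset ℕ) (Lc : ℕ → Finset ℕ),
      (∀ s ∈ T, ∀ l ∈ Lc s, th m s / 2 ≤ (1 / 2 : ℝ) ^ l) →
      ∑ s ∈ T, ∑ l ∈ Lc s, K * (m : ℝ) ^ a * A ^ s * th m s ≤ ε := by
  filter_upwards [master (3 * K) (A * 2) (a + 1) (half_pos hε) (by positivity) (by positivity),
    eventually_ge_atTop 1] with m hm hm1 T Lc hL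
  refine card_half T hε.le fun s hs => ?_
  have hc : (Lc s).card ≤ m * 2 ^ s + 2 := by
    refine card_cls_le (Lc s) (m * 2 ^ s) fun l hl => ?_
    have := hL s hs l hl
    rw [pow_succ]
    unfold th at this
    linarith
  rw [sum_const, nsmul_eq_mul]
  have hc' : ((Lc s).card : ℝ) ≤ 3 * m * 2 ^ s := by
    have h1 : ((Lc s).card : ℝ) ≤ m * 2 ^ s + 2 := by exact_mod_cast hc
    have h2 : (1 : ℝ) ≤ m := by exact_mod_cast hm1
    have h3 : (1 : ℝ) ≤ 2 ^ s := one_le_pow₀ (by norm_num)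
    nlinarith
  have h5 : 0 ≤ K * (m : ℝ) ^ a * A ^ s * th m s := by have := th_pos m s; positivity
  calc ((Lc s).card : ℝ) * (K * (m : ℝ) ^ a * A ^ s * th m s)
      ≤ (3 * m * 2 ^ s) * (K * (m : ℝ) ^ a * A ^ s * th m s) :=
        mul_le_mul_of_nonneg_right hc' h5
    _ = 3 * K * (m : ℝ) ^ (a + 1) * (A * 2) ^ s * (1 / 2) ^ (m * 2 ^ s) := by
        unfold th; rw [mul_pow, pow_succ]; ring
    _ ≤ _ := hm s

end Vale.Agent.P315.H508
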