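import Vale.Agent.P315.H381.H3a
import Vale.Agent.P315.H295.Cls
import Vale.Agent.P315.H220.Inst

/-! P315, row C-H3: the class test of the concrete machine at its own block is the class of the
static block. -/

set_option autoImplicit false

open Finset

namespace Vale.Agent.P315.H508

open Vale.Agent.P315.C Vale.Agent.P315.H801 Vale.Agent.P315.H220 Vale.Agent.P315.Acc

theorem cdiv_le_iff {x y d : ℕ} (hy : 0 < y) : cdiv x y ≤ d ↔ x ≤ d * y := by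
  unfold cdiv
  rw [← Nat.lt_succ_iff, Nat.div_lt_iff_lt_mul hy, Nat.succ_mul]
  omega

theorem lt_cdiv_iff {x y d : ℕ} (hy : 0 < y) : d < cdiv x y ↔ d * y < x := by
  rw [← not_le, cdiv_le_iff hy, not_le]

/-- The class of a drop of natural numbers, in units of `W`. -/
theorem drop_cls {W d l : ℕ} (hW : 0 < W) :
    (cdiv W (2 ^ (l + 1)) ≤ d ∧ d < cdiv W (2 ^ l)) ↔
      ((1 / 2 : ℝ) ^ (l + 1) ≤ (d : ℝ) / W ∧ (d : ℝ) / W < (1 / 2) ^ l) := by
  have hW' : (0 : ℝ) < W := by exact_mod_cast hW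
  rw [cdiv_le_iff (by positivity), lt_cdiv_iff (by positivity), one_div_pow, one_div_pow,
    div_le_div_iff₀ (by positivity) hW', div_lt_div_iff₀ hW' (by positivity), one_mul]
  constructor
  · rintro ⟨h1, h2⟩
    exact ⟨by exact_mod_cast h1, by exact_mod_cast h2⟩
  · rintro ⟨h1, h2⟩
    exact ⟨by exact_mod_cast h1, by exact_mod_cast h2⟩

section core

variable {F : ℤ → ℕ} {L0 H : ℤ} {Dl off o : ℕ} {j0 base : ℤ}

/-- A static block which starts before the round `0` has no drop. -/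
theorem drop_zero (hneg : ∀ b b', b < L0 → b' < L0 → F b = F b') (hH : (Dl : ℤ) - H ≤ L0)
    (hj0 : j0 * Dl = base + H + o + off) {k : ℕ} (h : ((k : ℤ) + j0) * Dl < off) :
    F (base + ((o + k * Dl : ℕ) : ℤ)) = F (base + ((o + (k + 1) * Dl : ℕ) : ℤ)) := by
  have e : base = j0 * Dl - H - o - off := by rw [hj0]; ring
  have hD : (0 : ℤ) ≤ Dl := by positivity
  have h1 : ((k : ℤ) + j0) * Dl = k * Dl + j0 * Dl := by ring
  have h2 : ((k : ℤ) + 1) * Dl = k * Dl + Dl := by ring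
  refine hneg _ _ ?_ ?_
  · push_cast
    rw [e]
    linarith
  · push_cast
    rw [e, h2]
    linarith

/-- The class test of the own block `j = k + j0`. -/
theorem cls_core (hanti : ∀ b b', b ≤ b' → F b' ≤ F b)
    (hneg : ∀ b b', b < L0 → b' < L0 → F b = F b') (hH : (Dl : ℤ) - H ≤ L0) (hDl : 0 < Dl)
    (hj0 : j0 * Dl = base + H + o + off) {W l : ℕ} (hW : 0 < W) {k j : ℕ}
    (hj : (j : ℤ) = k + j0) :
    (cdiv W (2 ^ (l + 1)) ≤ F ((blo Dl off j : ℕ) - H) - F ((blo Dl off (j + 1) : ℕ) - H) ∧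
      F ((blo Dl off j : ℕ) - H) - F ((blo Dl off (j + 1) : ℕ) - H) < cdiv W (2 ^ l)) ↔
      ((1 / 2 : ℝ) ^ (l + 1) ≤ ((F (base + ((o + k * Dl : ℕ) : ℤ)) : ℝ) -
          F (base + ((o + (k + 1) * Dl : ℕ) : ℤ))) / W ∧
        ((F (base + ((o + k * Dl : ℕ) : ℤ)) : ℝ) -
          F (base + ((o + (k + 1) * Dl : ℕ) : ℤ))) / W < (1 / 2) ^ l) := by
  have hD : (0 : ℤ) < Dl := by exact_mod_cast hDl
  have e : base = j0 * Dl - H - o - off := by rw [hj0]; ring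
  have hle : F (base + ((o + (k + 1) * Dl : ℕ) : ℤ)) ≤ F (base + ((o + k * Dl : ℕ) : ℤ)) := by
    refine hanti _ _ ?_
    push_cast
    nlinarith
  have hF : F ((blo Dl off j : ℕ) - H) - F ((blo Dl off (j + 1) : ℕ) - H) =
      F (base + ((o + k * Dl : ℕ) : ℤ)) - F (base + ((o + (k + 1) * Dl : ℕ) : ℤ)) := by
    rcases Nat.lt_or_ge (j * Dl) off with h | h
    · have h' : ((k : ℤ) + j0) * Dl < off := by
        rw [← hj]; exact_mod_cast h
      rw [drop_zero hneg hH hj0 h', Nat.sub_self]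
      have h1 : F ((blo Dl off j : ℕ) - H) = F ((blo Dl off (j + 1) : ℕ) - H) := by
        have h2 : blo Dl off j = 0 := by unfold blo; omega
        have h3 : blo Dl off (j + 1) < Dl := by
          unfold blo
          have : (j + 1) * Dl = j * Dl + Dl := by ring
          omega
        refine hneg _ _ ?_ ?_
        · rw [h2]; push_cast; linarith
        · have h4 : ((blo Dl off (j + 1) : ℕ) : ℤ) < Dl := by exact_mod_cast h3
          linarith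
      rw [h1, Nat.sub_self]
    · have h1 : ((blo Dl off j : ℕ) : ℤ) - H = base + ((o + k * Dl : ℕ) : ℤ) := by
        unfold blo
        rw [Nat.cast_sub h, e]
        push_cast
        rw [hj]
        ring
      have h2 : ((blo Dl off (j + 1) : ℕ) : ℤ) - H = base + ((o + (k + 1) * Dl : ℕ) : ℤ) := by
        unfold blo
        have h3 : off ≤ (j + 1) * Dl := h.trans (Nat.mul_le_mul_right _ (Nat.le_succ j))
        rw [Nat.cast_sub h3, e]
        push_cast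
        rw [hj]
        ring
      rw [h1, h2]
  rw [hF, drop_cls hW, Nat.cast_sub hle]

end core

section box

variable {M ℓ μ B Jp Sc H : ℕ} {mc : C.Mach} {ω : Rnd} {vis hid : Leaf}

/-- Value which the machines of scale `s` with `g` nodes per unit and the ends `A0`, `B0` see at
the own index `b` of the region `(j, i, a)`. -/
noncomputable def WB (P : Par) (mc : C.Mach) (ω : Rnd) (vis hid : Leaf) (j i a s g A0 B0 : ℕ)
    (b : ℤ) : ℕ :=
  H381.WZ P mc ω vis hid j i a s (2 * P.M ^ 2 ^ s * g + 1) A0 B0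
    (fun x => labN (P.M ^ 2 ^ s) (P.ℓ * P.M ^ (j - 2 ^ s)) a
      (posN P.μ P.B (a * (P.M ^ 2 ^ s * (P.ℓ * P.M ^ (j - 2 ^ s)))) (P.ℓ * P.M ^ (j - 2 ^ s)) g x))
    (fun x => posN P.μ P.B (a * (P.M ^ 2 ^ s * (P.ℓ * P.M ^ (j - 2 ^ s))))
      (P.ℓ * P.M ^ (j - 2 ^ s)) g x) b

theorem wd_nodeD (j i a s g A0 B0 κ : ℕ) :
    WD (M ^ 2 ^ s + 2) (2 * M ^ 2 ^ s * g + 1) A0 B0
      (nodeD (M ^ 2 ^ s) (ℓ * M ^ (j - 2 ^ s)) g μ B a
        (C.hist (boxPar M ℓ μ B Jp Sc H) ω vis hid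
          (rd (boxPar M ℓ μ B Jp Sc H) mc ω vis hid) j i a s) κ) =
      WB (boxPar M ℓ μ B Jp Sc H) mc ω vis hid j i a s g A0 B0 ((κ : ℤ) - H) := rfl

section

variable {X : Type} [Fintype X] [Nonempty X] {Sy : Sys X} (R : Acc.Mach Sy)
    {j i a' s g a0 b0 l off o a : ℕ} {x : X} {base j0 : ℤ} {DE : ℝ}

theorem WB_anti (hE : ∃ p q, H140.Ed (boxPar M ℓ μ B Jp Sc H) p q)
    (hle : HidLe (boxPar M ℓ μ B Jp Sc H) vis hid) (ha0 : a0 ≤ g) (hb0 : b0 ≤ 2 * g) {b b' : ℤ}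
    (h : b ≤ b') :
    WB (boxPar M ℓ μ B Jp Sc H) mc ω vis hid j i a' s g (a0 * M ^ 2 ^ s) (b0 * M ^ 2 ^ s) b' ≤
      WB (boxPar M ℓ μ B Jp Sc H) mc ω vis hid j i a' s g (a0 * M ^ 2 ^ s) (b0 * M ^ 2 ^ s) b := by
  have e1 : a0 * M ^ 2 ^ s < 2 * M ^ 2 ^ s * g + 1 := by
    have h1 : a0 * M ^ 2 ^ s ≤ g * M ^ 2 ^ s := Nat.mul_le_mul_right _ ha0
    have h2 : 2 * M ^ 2 ^ s * g = g * M ^ 2 ^ s + g * M ^ 2 ^ s := by ring
    omega
  have e2 : b0 * M ^ 2 ^ s < 2 * M ^ 2 ^ s * g + 1 := by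
    have h1 : b0 * M ^ 2 ^ s ≤ 2 * g * M ^ 2 ^ s := Nat.mul_le_mul_right _ hb0
    have h2 : 2 * M ^ 2 ^ s * g = 2 * g * M ^ 2 ^ s := by ring
    omega
  exact H381.WZ_anti hE hle e1 e2 h

theorem WB_neg (hs : 2 ^ s ≤ j) {A0 B0 : ℕ} {b b' : ℤ} (h : b < -(j : ℤ) + 2 ^ s)
    (h' : b' < -(j : ℤ) + 2 ^ s) :
    WB (boxPar M ℓ μ B Jp Sc H) mc ω vis hid j i a' s g A0 B0 b =
      WB (boxPar M ℓ μ B Jp Sc H) mc ω vis hid j i a' s g A0 B0 b' :=
  H381.WZ_neg hs h h'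

/-- The drop of the machine value in a static block. -/
theorem m_eq {F : ℤ → ℕ} {W : ℕ}
    (hom : ∀ β, R.om s a x β = ((F (base + (β : ℤ)) : ℝ) - DE) / (W : ℝ)) (k : ℕ) :
    R.m o s a x k = ((F (base + ((o + k * Sy.D s : ℕ) : ℤ)) : ℝ) -
      F (base + ((o + (k + 1) * Sy.D s : ℕ) : ℤ))) / (W : ℝ) := by
  unfold Acc.Mach.m Sys.b0 Sys.b1
  rw [hom, hom]
  ring

/-- **The class test of the machine at its own block is the class of the static block.** -/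
theorem actQ_iff_clsR {q NL : ℕ} (hE : ∃ p q, H140.Ed (boxPar M ℓ μ B Jp Sc H) p q)
    (hle : HidLe (boxPar M ℓ μ B Jp Sc H) vis hid) (hs : 2 ^ s ≤ j)
    (hK : 0 < M ^ 2 ^ s * (ℓ * M ^ (j - 2 ^ s)))
    (h1 : qA g q = a0) (h2 : qB g q = b0) (h3 : qL g NL q = l)
    (h4 : qO g NL (Sy.D s) q = off) (ha0 : a0 ≤ g) (hb0 : b0 ≤ 2 * g)
    (hDs : 0 < Sy.D s) (hH : Sy.D s + j ≤ H + 2 ^ s)
    (hom : ∀ β, R.om s a x β = ((WB (boxPar M ℓ μ B Jp Sc H) mc ω vis hid j i a' s g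
      (a0 * M ^ 2 ^ s) (b0 * M ^ 2 ^ s) (base + (β : ℤ)) : ℝ) - DE) /
        ((M ^ 2 ^ s * (ℓ * M ^ (j - 2 ^ s)) : ℕ) : ℝ))
    (hj0 : j0 * Sy.D s = base + H + o + off) {k jj : ℕ} (hj : (jj : ℤ) = k + j0) :
    actQ (M ^ 2 ^ s) (ℓ * M ^ (j - 2 ^ s)) g NL (Sy.D s) μ B q a'
      (C.hist (boxPar M ℓ μ B Jp Sc H) ω vis hid
          (rd (boxPar M ℓ μ B Jp Sc H) mc ω vis hid) j i a' s) jj ↔
      H295.clsR R (fun _ _ _ => 1) o s a l x k := by
  rw [actQ_iff h1 h2 h3 h4]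
  have hL : ((Sy.D s : ℕ) : ℤ) - H ≤ -(j : ℤ) + 2 ^ s := by
    have : ((Sy.D s + j : ℕ) : ℤ) ≤ ((H + 2 ^ s : ℕ) : ℤ) := by exact_mod_cast hH
    push_cast at this
    linarith
  have key := cls_core
    (F := WB (boxPar M ℓ μ B Jp Sc H) mc ω vis hid j i a' s g (a0 * M ^ 2 ^ s) (b0 * M ^ 2 ^ s))
    (fun b b' h => WB_anti hE hle ha0 hb0 h) (fun b b' h h' => WB_neg hs h h') hL hDs hj0 hK
    (l := l) hj
  unfold H295.clsR
  rw [one_mul, m_eq R hom k]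
  exact key

/-- A static block with a class starts after the round `0`. -/
theorem off_le_of_cls (hs : 2 ^ s ≤ j) (hH : Sy.D s + j ≤ H + 2 ^ s)
    (hom : ∀ β, R.om s a x β = ((WB (boxPar M ℓ μ B Jp Sc H) mc ω vis hid j i a' s g
      (a0 * M ^ 2 ^ s) (b0 * M ^ 2 ^ s) (base + (β : ℤ)) : ℝ) - DE) /
        ((M ^ 2 ^ s * (ℓ * M ^ (j - 2 ^ s)) : ℕ) : ℝ))
    (hj0 : j0 * Sy.D s = base + H + o + off) {k : ℕ}
    (hc : H295.clsR R (fun _ _ _ => 1) o s a l x k) : (off : ℤ) ≤ (k + j0) * Sy.D s := by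
  by_contra hcon
  have hL : ((Sy.D s : ℕ) : ℤ) - H ≤ -(j : ℤ) + 2 ^ s := by
    have : ((Sy.D s + j : ℕ) : ℤ) ≤ ((H + 2 ^ s : ℕ) : ℤ) := by exact_mod_cast hH
    push_cast at this
    linarith
  have h1 := drop_zero (F := WB (boxPar M ℓ μ B Jp Sc H) mc ω vis hid j i a' s g
    (a0 * M ^ 2 ^ s) (b0 * M ^ 2 ^ s)) (fun b b' h h' => WB_neg hs h h') hL hj0
    (not_le.1 hcon)
  have h2 := hc.1
  rw [one_mul, m_eq R hom k, h1, sub_self, zero_div] at h2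
  have : (0 : ℝ) < (1 / 2) ^ (l + 1) := by positivity
  linarith

end

end box

end Vale.Agent.P315.H508
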