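import Vale.Agent.P315.H808.QT3
import Vale.Agent.P315.H784.Select
import Vale.Agent.P315.C.FamArea

/-!
P315, part C: the query theorem `StmtQT fam` from the rows (machine inequality, heavy blocks,
capacities, failures). All numbers are chosen here: `ε → eps0, cd → m → k → a₀ → n₀`.
-/

set_option autoImplicit false

open Finset Filter

namespace Vale.Agent.P315.H508

open Vale.Agent.P315.C Vale.Agent.P315.H808
open Vale.Agent.P315.H731 (av)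
open Vale.Agent.P315.H659 (toRnd)

/-- Side conditions of `StmtQT` on the sizes of an instance. -/
structure Side (m a₀ n₀ n S ℓ μ B : ℕ) (η : ℝ) : Prop where
  n₀_le : n₀ ≤ n
  dvd : 2 ^ S ∣ n
  cube : (n + 2) ^ 3 ≤ (2 ^ m) ^ 2 ^ S
  logS : 2 ^ S ≤ 6 * (Nat.log 2 (n + 2) + 2)
  μ_pos : 0 < μ
  μ_dvd : μ ∣ ℓ
  μ_le : a₀ * (n + 2) ^ a₀ * μ ≤ ℓ
  net : 2 ^ (2 * m * 2 ^ S) ∣ ℓ / μ
  ℓ_pos : 0 < ℓ
  B_ge : 2 ^ (20 * m * n) * ℓ ≤ B
  η_nonneg : 0 ≤ η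
  η_le : a₀ * ((n : ℝ) + 2) ^ a₀ * η ≤ 1

theorem Side.mono {m a₀ a₁ n₀ n₁ n S ℓ μ B : ℕ} {η : ℝ} (h : Side m a₁ n₁ n S ℓ μ B η)
    (ha : a₀ ≤ a₁) (hn : n₀ ≤ n₁) : Side m a₀ n₀ n S ℓ μ B η := by
  refine ⟨hn.trans h.n₀_le, h.dvd, h.cube, h.logS, h.μ_pos, h.μ_dvd, ?_, h.net, h.ℓ_pos, h.B_ge,
    h.η_nonneg, ?_⟩
  · refine le_trans ?_ h.μ_le
    have : (n + 2) ^ a₀ ≤ (n + 2) ^ a₁ := Nat.pow_le_pow_right (by omega) ha
    gcongr
  · refine le_trans ?_ h.η_le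
    have h1 : (a₀ : ℝ) ≤ a₁ := by exact_mod_cast ha
    have h2 : (1 : ℝ) ≤ (n : ℝ) + 2 := by
      have : (0 : ℝ) ≤ n := Nat.cast_nonneg n
      linarith
    have h3 : ((n : ℝ) + 2) ^ a₀ ≤ ((n : ℝ) + 2) ^ a₁ := pow_le_pow_right₀ h2 ha
    have h4 := h.η_nonneg
    gcongr

/-- The rows for the family: for every instance and every cut of the form used by
`H808.good_of_rows`. -/
def RowsH : Prop :=
  ∀ eps0 : ℝ, 0 < eps0 → eps0 ≤ 1 → ∃ CL : ℝ, 0 ≤ CL ∧ ∀ cd : ℕ, 0 < cd →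
    ∀ᶠ m : ℕ in atTop, ∀ k : ℕ, 4 / eps0 * (m : ℝ) ^ 2 * 2 ^ m ≤ 2 ^ k →
      (2 : ℝ) ^ k ≤ 2 * (4 / eps0 * (m : ℝ) ^ 2 * 2 ^ m) → ∃ a₀ n₀ : ℕ,
      ∀ (n S ℓ μ B : ℕ) (η : ℝ), Side m a₀ n₀ n S ℓ μ B η →
      ∀ (vis hid : Leaf) (C : Chain (fam m k cd n S ℓ μ B).P vis hid (fam m k cd n S ℓ μ B).n)
        (K : CutPar (fam m k cd n S ℓ μ B) C)
        [Nonempty (Fin ((fam m k cd n S ℓ μ B).P.M ^ (fam m k cd n S ℓ μ B).n))]
        (hI : Inst (fam m k cd n S ℓ μ B).P vis hid (fam m k cd n S ℓ μ B).n η C),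
        (∀ i, C.w i = ℓ) → K.lo = (fam m k cd n S ℓ μ B).N - (16 ^ S * m ^ 2 : ℕ) → K.smax = S →
        K.NB = n * (2 ^ k - 1) + 1 → K.D0 = m ^ 2 → K.pb = 0 →
        RowsOK eps0 CL m (eps0 * n) (eps0 * n) (eps0 * n) K hI

/-- **The query theorem from the rows.** -/
theorem stmtQT_of_rows (hrows : RowsH) : StmtQT fam := by
  intro ε hε
  obtain ⟨eps0, he0, he1, cd, hcd, hcdle, harith⟩ := Par.value_arith hε
  obtain ⟨CL, hCL, hR⟩ := hrows eps0 he0 he1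
  have hK1 : (1 : ℝ) ≤ 4 / eps0 := by
    rw [le_div_iff₀ he0]; linarith
  set K2 : ℕ := ⌈8 / eps0⌉₊ with hK2
  have hK2' : 8 / eps0 ≤ K2 := Nat.le_ceil _
  have hK2pos : 1 ≤ K2 := by
    rw [hK2, Nat.one_le_ceil_iff]; positivity
  obtain ⟨m, h1, h2, h3, hm1⟩ :=
    ((hR cd hcd).and ((good_of_rows he0 hCL).and ((fam_area K2 hK2pos hcd).and
      (eventually_ge_atTop 1)))).exists
  have m1 : (1 : ℝ) ≤ m := by exact_mod_cast hm1
  obtain ⟨k, hk1, hklow, hkup⟩ := Par.exists_k hK1 hm1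
  obtain ⟨a₀, n₁, hrow⟩ := h1 k hklow hkup
  -- size of `k`
  have hk8 : (8 : ℝ) ≤ 2 ^ k := by
    refine le_trans ?_ hklow
    have e1 : (2 : ℝ) ≤ 2 ^ m := by
      calc (2 : ℝ) = 2 ^ 1 := by norm_num
        _ ≤ 2 ^ m := pow_le_pow_right₀ (by norm_num) hm1
    have e2 : (4 : ℝ) ≤ 4 / eps0 := by
      rw [le_div_iff₀ he0]; nlinarith
    have e3 : (1 : ℝ) ≤ (m : ℝ) ^ 2 := one_le_pow₀ m1
    have e4 : (4 : ℝ) ≤ 4 / eps0 * (m : ℝ) ^ 2 := by nlinarith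
    nlinarith
  have hk8' : 8 ≤ 2 ^ k := by exact_mod_cast hk8
  have hk2 : 2 ≤ k := by
    by_contra h
    have : k = 1 := by omega
    rw [this] at hk8'
    norm_num at hk8'
  have hkK2 : 2 ^ k ≤ K2 * m ^ 2 * 2 ^ m := by
    have : (2 : ℝ) ^ k ≤ K2 * (m : ℝ) ^ 2 * 2 ^ m := by
      refine hkup.trans ?_
      calc 2 * (4 / eps0 * (m : ℝ) ^ 2 * 2 ^ m) = 8 / eps0 * ((m : ℝ) ^ 2 * 2 ^ m) := by ring
        _ ≤ K2 * ((m : ℝ) ^ 2 * 2 ^ m) := mul_le_mul_of_nonneg_right hK2' (by positivity)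
        _ = _ := by ring
    exact_mod_cast this
  have hJcast : ((2 ^ k - 1 : ℕ) : ℝ) = 2 ^ k - 1 := by
    rw [Nat.cast_sub Nat.one_le_two_pow]; push_cast; ring
  set J : ℝ := ((2 ^ k - 1 : ℕ) : ℝ) with hJ
  have hJ7 : 7 ≤ J := by rw [hJcast]; linarith
  -- lengths
  obtain ⟨n₂, hn₂⟩ := harith ((m : ℝ) ^ 2 + 1) J
  obtain ⟨n₃, hn₃⟩ := Par.exists_small (5 / 2 + 5 / 2 * (CL * m) + 12 * m) he0 2
  obtain ⟨n₄, hn₄⟩ := Par.exists_small (J + 3) he0 0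
  refine ⟨m, k, cd, a₀, max (max n₁ n₂) (max n₃ (max n₄ 2)), (1 / cd : ℝ) ^ 2 / J ^ 2, 3, hm1,
    by positivity, ?_⟩
  intro n S ℓ μ B hn hdvd hcube hlogS hμ hμℓ hμle hnet hℓ hB η hη0 hη
  have hn1 : n₁ ≤ n := ((le_max_left _ _).trans (le_max_left _ _)).trans hn
  have hn2 : n₂ ≤ n := ((le_max_right _ _).trans (le_max_left _ _)).trans hn
  have hn3 : n₃ ≤ n := ((le_max_left _ _).trans (le_max_right _ _)).trans hn
  have hn4 : n₄ ≤ n :=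
    (((le_max_left _ _).trans (le_max_right _ _)).trans (le_max_right _ _)).trans hn
  have hn5 : 2 ≤ n :=
    (((le_max_right _ _).trans (le_max_right _ _)).trans (le_max_right _ _)).trans hn
  have hn5' : (2 : ℝ) ≤ n := by exact_mod_cast hn5
  have hn0 : (0 : ℝ) < n := by linarith
  have hcd1 : (1 : ℝ) ≤ cd := by exact_mod_cast hcd
  have hcd' : 1 / (cd : ℝ) ≤ 1 := by rw [div_le_one (by linarith)]; exact hcd1
  have hN_ge := famN_ge (k := k) hcd (n := n)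
  have hN_le := famN_le (k := k) hcd (n := n)
  rw [← hJ] at hN_ge hN_le
  have hcdpos : 0 ≤ 1 / (cd : ℝ) := by positivity
  have hNle2 : ((famN k cd n : ℤ) : ℝ) ≤ n * J / 2 := by
    refine hN_le.trans ?_
    nlinarith
  have hNge2 : n * J / 2 - ((famN k cd n : ℤ) : ℝ) ≤ n / cd + 2 := by
    have e : (J / 2 - 1 / cd) * n = n * J / 2 - n / cd := by ring
    rw [e] at hN_ge
    linarith
  have hN0 : 0 ≤ famN k cd n := by
    have : (0 : ℝ) ≤ ((famN k cd n : ℤ) : ℝ) := by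
      refine le_trans ?_ hN_ge
      nlinarith
    exact_mod_cast this
  refine h2 (fam m k cd n S ℓ μ B) S η ε _ (eps0 * n) (eps0 * n) (eps0 * n) fam_M_pos fam_q_pos
    fam_J_dvd (by show 0 < n; omega) hdvd (fun _ _ _ _ => rfl) hN0 hNle2 ?_ ?_ ?_ ?_ ?_
  · -- 4^S
    have h := hn₃ n hn3 S hlogS
    have e : (4 : ℝ) ^ S = ((2 : ℝ) ^ S) ^ 2 := by rw [← pow_mul, mul_comm, pow_mul]; norm_num
    rw [e]
    exact h
  · -- the last scale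
    have h := hn₄ n hn4 S hlogS
    rw [pow_zero, mul_one] at h
    refine Par.last_scale_le (J := J) (by linarith) ?_ h hcube
    show ((n * (2 ^ k - 1) + 1 : ℕ) : ℝ) ≤ J * n + 3
    push_cast
    rw [← hJ]
    linarith
  · -- the final arithmetic
    show (4 + eps0) * ((n * J / 2 - ((famN k cd n : ℤ) : ℝ) + 16 ^ S * (m : ℝ) ^ 2) +
      J * Real.sqrt n / 2) + 4 * eps0 * n + eps0 * n + eps0 * n + eps0 * n ≤ ε * n
    have h16 : (1 : ℝ) ≤ 16 ^ S := one_le_pow₀ (by norm_num)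
    set G := (n * J / 2 - ((famN k cd n : ℤ) : ℝ) + 16 ^ S * (m : ℝ) ^ 2) +
      J * Real.sqrt n / 2 with hG
    have h := hn₂ n hn2 S hlogS G (eps0 * n) (eps0 * n) (eps0 * n)
      (((4 + eps0) * G + 4 * eps0 * n + eps0 * n + eps0 * n + eps0 * n) / n)
      (by rw [hG]; nlinarith) le_rfl le_rfl le_rfl (by field_simp; exact le_rfl)
    rw [div_le_iff₀ hn0] at h
    exact h
  · intro vis hid C K _ hI hw hlo hs hNB hD0 hpb
    exact hrow n S ℓ μ B η ⟨hn1, hdvd, hcube, hlogS, hμ, hμℓ, hμle, hnet, hℓ, hB, hη0, hη⟩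
      vis hid C K hI hw hlo hs hNB hD0 hpb
  · intro vis hid C _ _
    exact h3 k hk2 hkK2 n S ℓ μ B vis hid

end Vale.Agent.P315.H508
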