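import Vale.Agent.P315.H381.RFam
import Vale.Agent.P315.H295.CapW
import Vale.Agent.P315.H784.ErNum
import Vale.Agent.P315.H423.FailAct
import Vale.Agent.P315.H808.HePlug
import Vale.Agent.P315.H784.QT4

/-! Query theorem of the additive algorithm: the rows (machine inequality, heavy blocks,
capacities, failures) for the concrete family `C.fam`. -/

set_option autoImplicit false

open Finset Filter

namespace Vale.Agent.P315.H508

open Vale.Agent.P315.C Vale.Agent.P315.H659 Vale.Agent.P315.Acc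
open Vale.Agent.P315.H808
open Vale.Agent.P315.H731

/-! ### The failures -/

/-- Failure probability of one top of scale `s`. -/
noncomputable def pM1 (m s : ℕ) : ℝ :=
  ((famMP m).NL s : ℝ) * (famMP m).Dl s * (famMP m).R s *
    ((((famMP m).R s * (famMP m).Dl s : ℕ) : ℝ) *
      (2 / (2 + Par.dlm m s)) ^ (famMP m).Sm s)

theorem pM1_nonneg (m s : ℕ) : 0 ≤ pM1 m s := by
  have := Par.dlm_pos' m s
  unfold pM1
  positivity

theorem pM1_sum {ε : ℝ} (hε : 0 < ε) :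
    ∀ᶠ m : ℕ in atTop, ∀ T : Finset ℕ, ∑ s ∈ T, pM1 m s ≤ ε := by
  filter_upwards [fail_num 3 (Bd := 2) (by norm_num) hε, nat_poly_le 20480 512 5] with m h1 h2 T
  have key := h1 T (fun s => (famMP m).NL s * (famMP m).Dl s * (famMP m).R s)
    (fun s => (famMP m).R s * (famMP m).Dl s) (fun _ => 2) (fun s => Par.dlm m s)
    (fun _ _ => by norm_num) (fun s _ => Par.dlm_pos' m s) (fun s _ => le_rfl) ?_
  · refine le_trans (le_of_eq (sum_congr rfl fun s _ => ?_)) key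
    unfold pM1
    have e1 : (famMP m).Sm s = 2 ^ (4 * (m * 2 ^ s)) := by
      show 2 ^ (4 * m * 2 ^ s) = _
      rw [mul_assoc]
    rw [e1]
    push_cast
    ring
  · intro s _
    have h3 : (famMP m).NL s * (famMP m).Dl s * (famMP m).R s *
        ((famMP m).R s * (famMP m).Dl s) =
        20480 * m ^ 5 * 512 ^ s * (2 ^ (m * 2 ^ s) * 2 ^ (m * 2 ^ s)) := by
      show 20 * m * 2 ^ s * (16 ^ s * m ^ 2) * 2 ^ (m * 2 ^ s + 5) *
        (2 ^ (m * 2 ^ s + 5) * (16 ^ s * m ^ 2)) = _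
      have e2 : (512 : ℕ) ^ s = 2 ^ s * 16 ^ s * 16 ^ s := by
        rw [← mul_pow, ← mul_pow]
        norm_num
      rw [e2, pow_add]
      ring
    have h4 := h2 s
    show (famMP m).NL s * (famMP m).Dl s * (famMP m).R s *
        ((famMP m).R s * (famMP m).Dl s) ≤ 2 ^ (3 * (m * 2 ^ s))
    rw [h3]
    calc 20480 * m ^ 5 * 512 ^ s * (2 ^ (m * 2 ^ s) * 2 ^ (m * 2 ^ s))
        ≤ 2 ^ (m * 2 ^ s) * (2 ^ (m * 2 ^ s) * 2 ^ (m * 2 ^ s)) := Nat.mul_le_mul_right _ h4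
      _ = 2 ^ (3 * (m * 2 ^ s)) := by rw [← pow_add, ← pow_add]; congr 1; ring

section

variable {m k cd n S ℓ μ B : ℕ}

/-- **Failure probability of one top**, for the family. -/
theorem failTopA_fam (vis hid : Leaf) {K h Tu g Cc μ' B' a' a0 b0 NR : ℕ} {Bd d : ℝ} {j s : ℕ}
    (hs : s ≤ S) (hj : 0 < j) (hjn : j ≤ n) (i a : ℕ) (hBd : 0 ≤ Bd) (hd : 0 < d)
    (hr : Bd * Par.dlm m s ≤ 2 * d) :
    av (fun w : (fam m k cd n S ℓ μ B).Seed => ind (H423.FailTopA K h Tu g ((famMP m).NL s)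
      ((famMP m).Dl s) ((famMP m).R s) ((famMP m).T s) ((famMP m).Sh s) Cc μ' B' a' a0 b0
      ((famMP m).Sm s) NR Bd d
      (hist (fam m k cd n S ℓ μ B).P (toRnd (fam m k cd n S ℓ μ B).P.J w) vis hid
        (rd (fam m k cd n S ℓ μ B).P (fam m k cd n S ℓ μ B).mc
          (toRnd (fam m k cd n S ℓ μ B).P.J w) vis hid) j i a s)
      ((toRnd (fam m k cd n S ℓ μ B).P.J w).coin j s))) ≤ pM1 m s := by
  have h1 := H423.failTopA_prob (n := (fam m k cd n S ℓ μ B).n)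
    (M := (fam m k cd n S ℓ μ B).P.M) (S := (fam m k cd n S ℓ μ B).P.S)
    (Cn := (fam m k cd n S ℓ μ B).Cn) (q := (fam m k cd n S ℓ μ B).q)
    (fam m k cd n S ℓ μ B).P.J (fam m k cd n S ℓ μ B).P (fam m k cd n S ℓ μ B).mc vis hid
    fam_q_pos (K := K) (h := h) (Tu := Tu) (g := g) (NL := (famMP m).NL s)
    (Dl := (famMP m).Dl s) (R := (famMP m).R s) (Sh := (famMP m).Sh s) (Cc := Cc) (μ := μ')
    (B := B') (a' := a') (a0 := a0) (b0 := b0) (NR := NR) (Bd := Bd) (d := d) (fam_T_dvd hs)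
    (j := j) (s := s) hj (Nat.lt_succ_of_le hjn) (Nat.lt_succ_of_le hs) i a (fam_Sm_le hs) hBd hd
  refine h1.trans ?_
  unfold pM1
  have h0 := Par.dlm_pos' m s
  have h2 : Bd / (Bd + d) ≤ 2 / (2 + Par.dlm m s) := by
    rw [div_le_div_iff₀ (by positivity) (by positivity)]
    linarith
  have h3 : 0 ≤ Bd / (Bd + d) := div_nonneg hBd (by positivity)
  gcongr

end

/-! ### What is left for the machines -/

/-- **The machine inequality of the classes**, in static blocks, with error terms in closed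
form. -/
def ClsRow (eps0 CL : ℝ) (m : ℕ) {Q : QPar} {vis hid : Leaf} {C : Chain Q.P vis hid Q.n}
    (K : CutPar Q C) [Nonempty (Fin (Q.P.M ^ Q.n))] {η : ℝ} (hI : Inst Q.P vis hid Q.n η C)
    (R : ∀ w : Q.Seed, Acc.Mach (K.sys hI w))
    (Fail : Q.Seed → ℕ → ℕ → ℕ → Fin (Q.P.M ^ Q.n) → Prop) : Prop :=
  ∀ w o s a, o < 16 ^ K.smax * K.D0 → 1 ≤ s → s ≤ K.smax → a < Q.n / 2 ^ s →
    ∀ x, ¬ Fail w o s a x → ∀ l, l < m * 2 ^ s + 4 →
      H295.lamR (fun _ _ _ => 1) (Par.thm m) (Par.thpm eps0 m) s a x l →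
      ∃ Lq Cq : ℝ, Lq ≤ CL * m * 2 ^ s ∧ Cq ≤ H295.CapN 22 33 640 m s l ∧
        ∀ A : Finset ℕ,
          (∀ k ∈ A, k < (K.sys hI w).nb s ∧ H295.clsR (R w) (fun _ _ _ => 1) o s a l x k) →
          ∑ k ∈ A, (R w).lhs 8 (fun _ _ _ => True) o s a x k ≤
            2 * ∑ k ∈ A, ∑ i ∈ range ((K.sys hI w).D s),
              (K.sys hI w).G s a x ((K.sys hI w).b0 o s k + i) +
            2 ^ s * Lq * (∑ k ∈ (range ((K.sys hI w).nb s)).filter (fun k => k ∉ A),
              ind (H295.clsR (R w) (fun _ _ _ => 1) o s a l x k) * (R w).m o s a x k) + Cq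

/-- `RowsOK` from the machine inequality of the classes and the failure probabilities. -/
theorem rowsOK_of_cls {eps0 : ℝ} (he : 0 < eps0) : ∃ K1 : ℕ, 1 ≤ K1 ∧ ∀ᶠ m : ℕ in atTop,
    ∀ (Q : QPar) (vis hid : Leaf) (C : Chain Q.P vis hid Q.n) (K : CutPar Q C)
      [Nonempty (Fin (Q.P.M ^ Q.n))] (η : ℝ) (hI : Inst Q.P vis hid Q.n η C)
      (R : ∀ w : Q.Seed, Acc.Mach (K.sys hI w))
      (Fail : Q.Seed → ℕ → ℕ → ℕ → Fin (Q.P.M ^ Q.n) → Prop) (c : ℝ),
      K1 * m ^ 2 * 2 ^ m ≤ Q.P.J + 1 → Q.P.J + 1 ∣ Q.q → Q.P.M = 2 ^ (20 * m) → 0 < c →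
      (∀ i, C.w i = c) → K.D0 = m ^ 2 →
      (∀ w s, 1 ≤ s → s ≤ K.smax → 1000 * (R w).tau s ≤ Par.thm m s) →
      ClsRow eps0 1452 m K hI R Fail →
      (∀ o s, 1 ≤ s → s ≤ K.smax → ∀ a < Q.n / 2 ^ s, ∀ x,
        av (fun w => ind (Fail w o s a x)) ≤ pM1 m s) →
      RowsOK eps0 1452 m (eps0 * Q.n) (eps0 * Q.n) (eps0 * Q.n) K hI := by
  refine ⟨⌈4 / eps0⌉₊ + 1, by omega, ?_⟩
  have hK1 : 4 ≤ eps0 * ((⌈4 / eps0⌉₊ + 1 : ℕ) : ℝ) := by
    have h1 := Nat.le_ceil (4 / eps0)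
    rw [div_le_iff₀ he] at h1
    push_cast
    linarith
  filter_upwards [H808.he_num he hK1, H295.capN_sum eps0 22 33 640 4 he he (by norm_num)
    (by norm_num) (by norm_num), pM1_sum he, Par.eventually_thr he 1,
    Par.eventually_thr2 he 80 (by norm_num)] with m hHe hCap hFs hthr hthr2
  obtain ⟨t1, t2, t3, t4⟩ := hthr
  intro Q vis hid C K _ η hI R Fail c hJ hJq hM hc hw hD0 htau hcls hfail
  have hq : Nonempty (Fin Q.q) := ⟨⟨0, K.hq⟩⟩
  have H : ∀ w, H295.RatOK (K.sys hI w) (fun s => m * 2 ^ s + 4) (fun _ _ _ => 1) (Par.thm m)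
      (Par.thpm eps0 m) := fun w =>
    H295.RatOK.one (fun s => Par.thm_pos m s) (fun s h1 _ => (t1 s h1).1) (fun s _ _ => by
      have h5 : (1 / 2 : ℝ) ^ (m * 2 ^ s + 4) = Par.thm m s * (1 / 16) := by
        rw [pow_add]; unfold Par.thm; norm_num
      have h6 := Par.thm_pos m s
      show (1 / 2 : ℝ) ^ (m * 2 ^ s + 4) ≤ _
      rw [h5]
      linarith)
  refine ⟨R, fun w => H295.thrR (R w) (H w) (htau w), 8, fun s => 1452 * m * 2 ^ s,
    fun _ _ s _ _ => ∑ l ∈ H295.Ls (fun s => m * 2 ^ s + 4) (Par.thm m) (Par.thpm eps0 m) s,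
      H295.CapN 22 33 640 m s l, Fail, le_rfl, fun _ => rfl, fun _ => rfl, ?_, ?_, ?_, ?_, ?_, ?_,
    ?_, ?_, ?_, ?_⟩
  · intro w s
    show 0 ≤ Par.thpm eps0 m s
    have := Par.thm_pos m (s - 1)
    unfold Par.thpm
    positivity
  · intro w s h1 _
    exact (t1 s h1).2
  · intro w s t h1 h2 _
    have h3 := hthr2 s t h1 h2
    have h4 := Par.thm_pos m s
    show 80 * Par.thpm eps0 m t ≤ 3 * Par.thm m s
    linarith
  · intro s; positivity
  · intro s; exact le_rfl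
  · intro _ _ s _ _
    exact sum_nonneg fun l _ => H295.CapN_nonneg (by norm_num) (by norm_num) (by norm_num) m s l
  · intro w o ho s hs a ha
    obtain ⟨h1, h2⟩ := mem_Icc.1 hs
    refine H295.h3bU_of_cls (R w) (H w) h1 h2 ha (L := fun s => 1452 * m * 2 ^ s)
      (Cl := fun _ s _ l _ => H295.CapN 22 33 640 m s l) (by positivity)
      (fun l _ => H295.CapN_nonneg (by norm_num) (by norm_num) (by norm_num) m s l) ?_
    intro x hx l hl hlam A hA
    obtain ⟨Lq, Cq, e1, e2, e3⟩ := hcls w o s a ho h1 h2 ha x hx l hl hlam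
    have e4 := e3 A hA
    have e5 : 0 ≤ ∑ k ∈ (range ((K.sys hI w).nb s)).filter (fun k => k ∉ A),
        ind (H295.clsR (R w) (fun _ _ _ => 1) o s a l x k) * (R w).m o s a x k :=
      sum_nonneg fun k _ => mul_nonneg (ind_nonneg _) (H295.m_nonneg' (R w) o s a x k)
    have e6 : 2 ^ s * Lq * (∑ k ∈ (range ((K.sys hI w).nb s)).filter (fun k => k ∉ A),
        ind (H295.clsR (R w) (fun _ _ _ => 1) o s a l x k) * (R w).m o s a x k) ≤
        2 ^ s * (1452 * m * 2 ^ s) * (∑ k ∈ (range ((K.sys hI w).nb s)).filter (fun k => k ∉ A),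
        ind (H295.clsR (R w) (fun _ _ _ => 1) o s a l x k) * (R w).m o s a x k) :=
      mul_le_mul_of_nonneg_right (mul_le_mul_of_nonneg_left e1 (by positivity)) e5
    linarith
  · intro o _
    have h1 := H808.CutPar.av_He K hI hc hw hJq o (t := Par.thm m 0 / 2)
      (by have := Par.thm_pos m 0; positivity)
    refine h1.trans ?_
    rw [mul_comm]
    refine mul_le_mul_of_nonneg_right ?_ (Nat.cast_nonneg _)
    have h2 := hHe Q.P.J (by exact_mod_cast hJ)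
    rw [hM, hD0]
    exact h2
  · intro w
    exact hCap (fun s => m * 2 ^ s + 4) (fun s => le_rfl) (K.sys hI w)
  · intro o _
    refine fails_plug (fun w => K.sys hI w) (fun x => C.w x) (fun x => C.w_pos x) Q.n K.smax
      (fun _ => rfl) (fun _ => rfl) (F := fun w s a x => Fail w o s a x) (p := pM1 m)
      (fun s _ => pM1_nonneg m s) (fun s hs a ha x => ?_) (hFs _)
    obtain ⟨h1, h2⟩ := mem_Icc.1 hs
    exact hfail o s h1 h2 a ha x

end Vale.Agent.P315.H508
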