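import Vale.Agent.P315.H508.QT5

/-! The numbers of the machine inequality of one class (`H855.h3b_class`) for the family, and the
rows of the query theorem from the machine inequality of every instance. -/

set_option autoImplicit false

open Finset Filter

namespace Vale.Agent.P315.H508

open Vale.Agent.P315.C Vale.Agent.P315.H659 Vale.Agent.P315.H731 Vale.Agent.P315.Acc
open Vale.Agent.P315.H808
open Vale.Agent.P315.H801 (cdiv)

/-- **Numbers of one class**, in the form of `H855.h3b_class`. -/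
theorem num_cls : ∀ᶠ m : ℕ in atTop, ∀ (s l K0 Tu : ℕ) (ε rb d τ : ℝ), 2 ≤ K0 → 2 ^ l ≤ Tu →
    3 / 32 * Par.thm m s < (1 / 2 : ℝ) ^ l → ε ≤ Par.dlm m s →
    rb ≤ 8 * (Tu * Par.dlm m s) → d ≤ 5 * (Tu * Par.dlm m s) → 0 ≤ τ → τ ≤ 1 / 2 →
    ((K0 + 2 : ℕ) : ℝ) / (K0 : ℝ) * (22 * Real.log (Par.EF m s)) ≤ 1452 * m * 2 ^ s ∧
    2 ^ s * (((K0 + 2 : ℕ) : ℝ) / (K0 : ℝ) *
        ((cdiv (10 * Tu) (2 ^ l) : ℝ) / Tu * Real.log (Par.EF m s))) +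
      (1 + 2 * τ) / (1 / 2) ^ (l + 1) * (((16 ^ s * m ^ 2 : ℕ) : ℝ) *
        (2 * ε + (4 * rb + 2 * d) / Tu + ((K0 + 2 : ℕ) : ℝ) / (K0 : ℝ) *
          ((cdiv (10 * Tu) (2 ^ l) : ℝ) / Tu * (4 * Par.dlm m s +
            H782.err1 (Par.EF m s) (Par.TF m s) (Par.TF m s / Par.ShF m s : ℝ) /
              Par.dlm m s)))) ≤ H295.CapN 22 33 640 m s l := by
  filter_upwards [Par.eventually_er, eventually_ge_atTop 1] with m her hm
  intro s l K0 Tu ε rb d τ hK hTu hl hε hrb hd hτ0 hτ1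
  have h1 := her s l K0 Tu ε rb d hK hTu hl hε hrb hd
  have h2 := Par.price_le (s := s) hm hK hTu
  have hlog := Par.log_EF hm s
  have hlog0 : 0 ≤ Real.log (Par.EF m s) := Real.log_natCast_nonneg _
  have hrows := Par.rows_le hK
  constructor
  · calc ((K0 + 2 : ℕ) : ℝ) / (K0 : ℝ) * (22 * Real.log (Par.EF m s))
        ≤ 2 * (22 * (33 * m * 2 ^ s)) := by
          refine mul_le_mul hrows (by linarith) (by positivity) (by norm_num)
      _ = 1452 * m * 2 ^ s := by ring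
  · have e9 : H295.CapN 22 33 640 m s l = 2 ^ s * (22 * (1 / 2) ^ l * (33 * m * 2 ^ s)) +
        2 ^ (l + 2) * (16 ^ s * (m : ℝ) ^ 2 * (640 * (Par.thm m s * (1 / 2) ^ l))) := rfl
    rw [e9]
    have h3 : (1 + 2 * τ) / (1 / 2) ^ (l + 1) ≤ 2 ^ (l + 2) := by
      rw [div_le_iff₀ (by positivity)]
      have e1 : (2 : ℝ) ^ (l + 2) * (1 / 2) ^ (l + 1) = 2 := by
        rw [pow_succ 2 (l + 1), mul_right_comm, ← mul_pow]; norm_num
      rw [e1]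
      linarith
    have h0 := Par.thm_pos m s
    have h4 : ((16 ^ s * m ^ 2 : ℕ) : ℝ) * (2 * ε + (4 * rb + 2 * d) / Tu +
        ((K0 + 2 : ℕ) : ℝ) / (K0 : ℝ) * ((cdiv (10 * Tu) (2 ^ l) : ℝ) / Tu * (4 * Par.dlm m s +
            H782.err1 (Par.EF m s) (Par.TF m s) (Par.TF m s / Par.ShF m s : ℝ) /
              Par.dlm m s))) ≤ 16 ^ s * (m : ℝ) ^ 2 * (640 * (Par.thm m s * (1 / 2) ^ l)) := by
      have e2 : ((16 ^ s * m ^ 2 : ℕ) : ℝ) = 16 ^ s * (m : ℝ) ^ 2 := by push_cast; ring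
      rw [e2]
      exact mul_le_mul_of_nonneg_left h1 (by positivity)
    have h5 : (1 + 2 * τ) / (1 / 2) ^ (l + 1) * (((16 ^ s * m ^ 2 : ℕ) : ℝ) *
        (2 * ε + (4 * rb + 2 * d) / Tu + ((K0 + 2 : ℕ) : ℝ) / (K0 : ℝ) *
          ((cdiv (10 * Tu) (2 ^ l) : ℝ) / Tu * (4 * Par.dlm m s +
            H782.err1 (Par.EF m s) (Par.TF m s) (Par.TF m s / Par.ShF m s : ℝ) /
              Par.dlm m s)))) ≤
        2 ^ (l + 2) * (16 ^ s * (m : ℝ) ^ 2 * (640 * (Par.thm m s * (1 / 2) ^ l))) := by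
      have h6 : 0 ≤ (1 + 2 * τ) / (1 / 2) ^ (l + 1) := by positivity
      refine (mul_le_mul_of_nonneg_left h4 h6).trans ?_
      exact mul_le_mul_of_nonneg_right h3 (by positivity)
    have h7 := mul_le_mul_of_nonneg_left h2 (by positivity : (0 : ℝ) ≤ 2 ^ s)
    exact add_le_add h7 h5

/-- All side conditions of one instance of the family, for one choice of the numbers. -/
structure FamOK (m k S ℓ μ B n : ℕ) (η : ℝ) : Prop where
  hm : 1 ≤ m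
  hk : 2 ≤ k
  hn : 0 < n
  hSn : 2 ^ S ∣ n
  hμ : 0 < μ
  hμℓ : μ ∣ ℓ
  h2 : 2 ^ (2 * m * 2 ^ S) ∣ ℓ / μ
  hℓ : 0 < ℓ
  hB : 2 ^ (20 * m * n) * ℓ ≤ B
  hη0 : 0 ≤ η
  hη : ∀ s, s ≤ S → 1000 * η ≤ Par.dlm m s
  hmesh : ∀ s, s ≤ S → 1000 * ((μ : ℝ) / ℓ) ≤ Par.dlm m s
  hthm : ∀ s, 13000 * Par.dlm m s ≤ Par.thm m s ∧ 48 * Par.thm m s ≤ 1
  hm3 : ∀ s, 3 ≤ m * 2 ^ s

/-- **The rows from the machine inequality of every instance.** -/
theorem rowsFam_of (hcls : ∀ eps0 : ℝ, 0 < eps0 → eps0 ≤ 1 → ∀ᶠ m : ℕ in atTop,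
    ∀ (k cd n S ℓ μ B : ℕ) (η : ℝ), FamOK m k S ℓ μ B n η →
    ∀ (vis hid : Leaf) (C : Chain (fam m k cd n S ℓ μ B).P vis hid (fam m k cd n S ℓ μ B).n)
      (K : CutPar (fam m k cd n S ℓ μ B) C)
      [Nonempty (Fin ((fam m k cd n S ℓ μ B).P.M ^ (fam m k cd n S ℓ μ B).n))]
      (hI : Inst (fam m k cd n S ℓ μ B).P vis hid (fam m k cd n S ℓ μ B).n η C)
      (N : H381.BoxNum (2 ^ (20 * m)) ℓ μ K.smax (famMP m).g) (hη : 0 ≤ η)
      (hw : ∀ i, C.w i = ℓ), K.lo = (fam m k cd n S ℓ μ B).N - (16 ^ S * m ^ 2 : ℕ) →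
      K.smax = S → K.NB = (fam m k cd n S ℓ μ B).n * (fam m k cd n S ℓ μ B).P.J + 1 →
      K.D0 = m ^ 2 → K.pb = 0 →
      ∃ Fail : (fam m k cd n S ℓ μ B).Seed → ℕ → ℕ → ℕ →
          Fin ((fam m k cd n S ℓ μ B).P.M ^ (fam m k cd n S ℓ μ B).n) → Prop,
        ClsRow eps0 1452 m K hI (fun w => H381.famR K hI N hη hw w) Fail ∧
        (∀ o s, 1 ≤ s → s ≤ K.smax → ∀ a < (fam m k cd n S ℓ μ B).n / 2 ^ s, ∀ x,
          av (fun w => ind (Fail w o s a x)) ≤ pM1 m s)) :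
    H784.RowsFam fam 1452 := by
  intro eps0 he he1
  obtain ⟨K1, hK1, hrows⟩ := rowsOK_of_cls he
  refine ⟨K1, hK1, ?_⟩
  filter_upwards [hrows, hcls eps0 he he1, Par.eventually_thr he 13000,
    eventually_ge_atTop 1] with m h1 h2 h3 hm
  obtain ⟨t1, t2, t3, t4⟩ := h3
  intro k cd hk hcd hk1 hk2
  obtain ⟨a0, ha0, hsm⟩ := Par.exists_a0 m 2 1000
  refine ⟨a0, 1, fun n S ℓ μ B hn hSn hS3 hS hμ hμℓ haμ h2d hℓ hB η hη haη => ?_⟩
  have hx1 := hsm n S hS η hη haη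
  have hx2 : ∀ s, s ≤ S → 1000 * ((μ : ℝ) / ℓ) ≤ Par.thm m s ^ 2 := by
    refine hsm n S hS _ (by positivity) ?_
    have hℓ' : (0 : ℝ) < ℓ := by exact_mod_cast hℓ
    rw [← mul_div_assoc, div_le_one hℓ']
    exact_mod_cast haμ
  have hOK : FamOK m k S ℓ μ B n η :=
    { hm := hm, hk := hk, hn := hn, hSn := hSn, hμ := hμ, hμℓ := hμℓ, h2 := h2d, hℓ := hℓ,
      hB := hB, hη0 := hη
      hη := fun s hs => by rw [Par.dlm_sq]; exact hx1 s hs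
      hmesh := fun s hs => by rw [Par.dlm_sq]; exact hx2 s hs
      hthm := fun s => ⟨(t2 s).2, (t2 s).1⟩
      hm3 := t4 }
  intro vis hid C K _ hI hw hlo hsmax hNB hD0 hpb
  have hN : H381.BoxNum (2 ^ (20 * m)) ℓ μ K.smax (famMP m).g := by
    rw [hsmax]
    exact H381.boxNum_fam hμ hμℓ hℓ h2d
  have hw' : ∀ i, C.w i = ℓ := hw
  obtain ⟨Fail, hc1, hc2⟩ := h2 k cd n S ℓ μ B η hOK vis hid C K hI hN hη hw' hlo hsmax hNB hD0
    hpb
  refine h1 (fam m k cd n S ℓ μ B) vis hid C K η hI (fun w => H381.famR K hI hN hη hw' w) Fail ℓ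
    ?_ fam_J_dvd rfl (by exact_mod_cast hℓ) hw' hD0 ?_ hc1 hc2
  · rw [fam_J_succ]
    exact hk1
  · intro w s _ hs
    rw [H381.famR_tau]
    have e1 := hOK.hη s (by omega)
    have e2 := (hOK.hthm s).1
    have e3 := Par.dlm_pos' m s
    linarith

end Vale.Agent.P315.H508
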