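import Vale.Agent.P315.H508.QT5B
import Vale.Agent.P315.H132.H3bBox
import Vale.Agent.P315.H855.ClsBox

/-! **The query theorem `StmtQT C.fam`** of the additive algorithm: the class rows of the concrete
machines (`H132.cls_box`) put into `rowsFam_of`. -/

set_option autoImplicit false

open Finset Filter

namespace Vale.Agent.P315.H508

open Vale.Agent.P315.C Vale.Agent.P315.H659 Vale.Agent.P315.H731 Vale.Agent.P315.Acc
open Vale.Agent.P315.H808
open Vale.Agent.P315.H801 (cdiv)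

/-- The first own block. -/
theorem exists_off {D : ℕ} (hD : 0 < D) (b : ℤ) :
    ∃ (off : ℕ) (j0 : ℤ), off < D ∧ j0 * D = b + off := by
  have hD' : (0 : ℤ) < D := by exact_mod_cast hD
  refine ⟨((-b) % D).toNat, -((-b) / D), ?_, ?_⟩
  · have h1 := Int.emod_lt_of_pos (-b) hD'
    have h2 := Int.emod_nonneg (-b) hD'.ne'
    omega
  · have h2 := Int.emod_nonneg (-b) hD'.ne'
    rw [Int.toNat_of_nonneg h2]
    have h3 := Int.emod_add_mul_ediv (-b) (D : ℤ)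
    linarith

/-- The number of the own rounds. -/
theorem rounds_le {D nb N1 off NR : ℕ} {b j0 B1 : ℤ} (hoff : off < D)
    (hj0 : j0 * D = b + off) (hnb : nb * D = N1) (hb : b ≤ B1)
    (hNR : (N1 : ℤ) + B1 + D ≤ NR) : ((nb : ℤ) + j0).toNat * D ≤ NR := by
  rcases le_or_gt 0 ((nb : ℤ) + j0) with h | h
  · have h1 : ((((nb : ℤ) + j0).toNat * D : ℕ) : ℤ) ≤ NR := by
      push_cast
      rw [Int.toNat_of_nonneg h, add_mul, hj0]
      have h2 : ((nb : ℤ)) * D = N1 := by exact_mod_cast hnb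
      rw [h2]
      have h3 : (off : ℤ) < D := by exact_mod_cast hoff
      linarith
    exact_mod_cast h1
  · rw [Int.toNat_of_nonpos h.le]
    omega

/-- Number of the own rounds that are looked at. -/
def nrQ (m S n NB : ℕ) (lo : ℤ) : ℕ :=
  NB * (16 ^ S * m ^ 2) + lo.toNat + famH m n S + 2 * (16 ^ S * m ^ 2)

theorem clsRow_fam (eps0 : ℝ) : ∀ᶠ m : ℕ in atTop,
    ∀ (k cd n S ℓ μ B : ℕ) (η : ℝ), FamOK m k S ℓ μ B n η →
    ∀ (vis hid : Leaf) (C : Chain (fam m k cd n S ℓ μ B).P vis hid (fam m k cd n S ℓ μ B).n)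
      (K : CutPar (fam m k cd n S ℓ μ B) C)
      [Nonempty (Fin ((fam m k cd n S ℓ μ B).P.M ^ (fam m k cd n S ℓ μ B).n))]
      (hI : Inst (fam m k cd n S ℓ μ B).P vis hid (fam m k cd n S ℓ μ B).n η C)
      (N : H381.BoxNum (2 ^ (20 * m)) ℓ μ K.smax (famMP m).g) (hη : 0 ≤ η)
      (hw : ∀ i, C.w i = ℓ), K.smax = S → K.D0 = m ^ 2 →
      ClsRow eps0 1452 m K hI (fun w => H381.famR K hI N hη hw w)
        (fun w _ s a x => H132.FailB (famMP m) (2 ^ (20 * m)) ℓ μ B (2 ^ k - 1) (S + 1)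
          (famH m n S) (toRnd (fam m k cd n S ℓ μ B).P.J w) vis hid C (nrQ m S n K.NB K.lo)
          (((ℓ * (2 ^ (20 * m)) ^ (a * 2 ^ s + 2 ^ s) : ℕ) : ℝ) * Par.dlm m s) s
          (a * 2 ^ s + 2 ^ s) ((x : ℕ) / (2 ^ (20 * m)) ^ (a * 2 ^ s + 2 ^ s))) := by
  filter_upwards [num_cls, eventually_ge_atTop 7] with m hnum hm7
  intro k cd n S ℓ μ B η hOK vis hid C K _ hI N hη hw hsmax hD0 w o s a ho h1 h2 ha x hx l hl hlam
  have hne : Nonempty (Fin ((2 ^ (20 * m)) ^ n)) := ‹_›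
  have hsS : s ≤ S := by rw [← hsmax]; exact h2
  have hDl : (famMP m).Dl s = 16 ^ s * K.D0 := by rw [hD0]; rfl
  have h4m : 7 ≤ m * 2 ^ s := hm7.trans (Nat.le_mul_of_pos_right _ (by positivity))
  have hth := Par.thm_pos m s
  have hdl := Par.dlm_pos' m s
  obtain ⟨t1, t2⟩ := hOK.hthm s
  have hdt : Par.dlm m s ≤ Par.thm m s := by linarith
  -- the class
  have hc1 : 3 / 4 * Par.thm m s < (1 / 2 : ℝ) ^ l := by
    have := hlam.1
    rwa [mul_one] at this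
  have hc2 : 3 / 32 * Par.thm m s < (1 / 2 : ℝ) ^ l := by linarith
  have hlm : l ≤ m * 2 ^ s := Par.cls_le' hc1
  -- the units
  set Mm : ℕ := 2 ^ (20 * m) with hMm
  have hMp : 0 < Mm := by positivity
  set Tu : ℕ := ℓ * Mm ^ (a * 2 ^ s) with hTu
  have hTu0 : 0 < Tu := Nat.mul_pos hOK.hℓ (Nat.pow_pos hMp)
  have hTuR : (0 : ℝ) < Tu := by exact_mod_cast hTu0
  have hud := Par.unit_dvd (m := m) (S := S) (l' := ℓ) (μ := μ) (s := s) (j := a * 2 ^ s) hOK.h2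
    hOK.hμℓ hsS
  have hTg : 2 ^ (2 * m * 2 ^ s) ≤ Tu := Nat.le_of_dvd hTu0 hud.2
  have hlT : 2 ^ l ≤ Tu := Par.two_pow_cls (hOK.hm3 s) hTg hc2
  have hηs := hOK.hη s hsS
  have hηd : η ≤ Par.dlm m s := by
    have := hOK.hη0
    linarith
  have hK2 : 2 ≤ Mm ^ 2 ^ s := Par.two_le_units hOK.hm s
  have hη' : ((Tu / (famMP m).g s : ℕ) : ℝ) ≤ Tu * Par.dlm m s := by
    refine (Nat.cast_div_le).trans (le_of_eq ?_)
    rw [Par.famMP_g, Par.div_gF]
  have hKpos : (0 : ℝ) < ((Mm ^ 2 ^ s : ℕ) : ℝ) := by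
    have : 0 < Mm ^ 2 ^ s := by omega
    exact_mod_cast this
  have hKT : ((ℓ * Mm ^ (a * 2 ^ s + 2 ^ s) : ℕ) : ℝ) = ((Mm ^ 2 ^ s : ℕ) : ℝ) * Tu := by
    rw [hTu, pow_add]
    push_cast
    ring
  have hd : ((ℓ * Mm ^ (a * 2 ^ s + 2 ^ s) : ℕ) : ℝ) * Par.dlm m s / ((Mm ^ 2 ^ s : ℕ) : ℝ) =
      Tu * Par.dlm m s := by
    rw [hKT, mul_assoc, mul_div_cancel_left₀ _ hKpos.ne']
  have hn1 := hnum s l (Mm ^ 2 ^ s) Tu η (8 * ((Tu / (famMP m).g s : ℕ) : ℝ))
    (((ℓ * Mm ^ (a * 2 ^ s + 2 ^ s) : ℕ) : ℝ) * Par.dlm m s / ((Mm ^ 2 ^ s : ℕ) : ℝ) +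
      4 * ((Tu / (famMP m).g s : ℕ) : ℝ)) (12 / (famMP m).g s + η) hK2 hlT hc2 hηd
    (by linarith) (by rw [hd]; linarith) (by have := hOK.hη0; positivity)
    (by
      have e1 : (12 : ℝ) / ((famMP m).g s : ℕ) = 12 * Par.dlm m s := by
        rw [Par.famMP_g, Par.div_gF]
      rw [e1]
      linarith)
  have hEF : (2 * Mm ^ 2 ^ s * (famMP m).g s + 1) * (2 * Mm ^ 2 ^ s * (famMP m).g s + 1) =
      Par.EF m s := by
    unfold Par.EF
    rw [sq]
    rfl
  have hLB : H132.LB (Mm ^ 2 ^ s) ((famMP m).g s) =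
      ((Mm ^ 2 ^ s + 2 : ℕ) : ℝ) / ((Mm ^ 2 ^ s : ℕ) : ℝ) * (22 * Real.log (Par.EF m s)) := by
    unfold H132.LB
    rw [hEF]
  have hDpos : 0 < (famMP m).Dl s := by
    rw [hDl]
    exact Nat.mul_pos (by positivity) K.hD0
  obtain ⟨off, j0, hoff, hj0⟩ := exists_off hDpos
    (K.lo - (H381.alongB (M := Mm) (ℓ := ℓ) (μ := μ) (B := B) (J := 2 ^ k - 1) (S := S + 1)
      (H := famH m n S) (n := n) C (H801.mach (famMP m) Mm ℓ μ B)
      (toRnd (fam m k cd n S ℓ μ B).P.J w) hI).S (a * 2 ^ s + 2 ^ s) x + famH m n S + o)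
  refine ⟨H132.LB (Mm ^ 2 ^ s) ((famMP m).g s), H132.capB (Mm ^ 2 ^ s) ((famMP m).g s)
    ((famMP m).T s) ((famMP m).Sh s) ((famMP m).Dl s) s l (cdiv (10 * Tu) (2 ^ l) : ℕ) (Tu : ℕ) η
    (Tu / (famMP m).g s : ℕ) (((ℓ * Mm ^ (a * 2 ^ s + 2 ^ s) : ℕ) : ℝ) * Par.dlm m s)
    (Par.dlm m s) (12 / (famMP m).g s + η), ?_, ?_, fun A hA => ?_⟩
  · rw [hLB]
    exact hn1.1
  · refine le_trans (le_of_eq ?_) hn1.2
    unfold H132.capB
    rw [hEF]
    rfl
  · have hjn : a * 2 ^ s + 2 ^ s ≤ n := Along.top_le ha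
    have hH : n + 16 ^ s * K.D0 ≤ famH m n S := by
      rw [hD0]
      unfold famH
      calc n + 16 ^ s * m ^ 2 ≤ n + 16 ^ S * m ^ 2 := Nat.add_le_add_left
            (Nat.mul_le_mul_right _ (Nat.pow_le_pow_right (by norm_num) hsS)) _
        _ ≤ n + 2 ^ S + 16 ^ S * m ^ 2 := Nat.add_le_add_right (Nat.le_add_right _ _) _
    have hj0' : j0 * ((16 ^ s * K.D0 : ℕ) : ℤ) =
        K.lo - (H381.alongB (M := Mm) (ℓ := ℓ) (μ := μ) (B := B) (J := 2 ^ k - 1) (S := S + 1)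
          (H := famH m n S) (n := n) C (H801.mach (famMP m) Mm ℓ μ B)
          (toRnd (fam m k cd n S ℓ μ B).P.J w) hI).S (a * 2 ^ s + 2 ^ s) x + famH m n S + o +
          off := by
      rw [← hDl]
      exact hj0
    have Z := H381.zfamB (M := Mm) (ℓ := ℓ) (μ := μ) (B := B) (J := 2 ^ k - 1) (S := S + 1)
      (H := famH m n S) (n := n) (C := C) (H801.mach (famMP m) Mm ℓ μ B)
      (toRnd (fam m k cd n S ℓ μ B).P.J w) hI N hη hw
    have key := H132.cls_box (M := Mm) (ℓ := ℓ) (μ := μ) (B := B) (J := 2 ^ k - 1) (S := S + 1)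
      (H := famH m n S) (n := n) (Ch := C) (famMP m) (toRnd (fam m k cd n S ℓ μ B).P.J w) hI N hη
      hw hOK.hμℓ
      (by
        have e1 := hOK.hmesh s hsS
        have e2 : Par.dlm m s ≤ 1 := by nlinarith
        have hℓ' : (0 : ℝ) < ℓ := by exact_mod_cast hOK.hℓ
        have e3 : 1000 * (μ : ℝ) ≤ ℓ := by
          have e4 : 1000 * ((μ : ℝ) / ℓ) ≤ 1 := e1.trans e2
          rw [← mul_div_assoc, div_le_one hℓ'] at e4
          exact e4
        have e5 : 1000 * μ ≤ ℓ := by exact_mod_cast e3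
        omega)
      K.lo K.NB K.D0 (fun _ => (fam m k cd n S ℓ μ B).P.J + K.pb) K.hD0 K.hn (K.sft_le hI w)
      K.hfin' (s := s) (a := a) h1 h2 (Nat.lt_succ_of_le hsS) ha o x (off := off) hoff
      (j0 := j0) hDl
      (by
        show 2 ^ s ≤ 16 ^ s * m ^ 2
        calc 2 ^ s ≤ 16 ^ s := Nat.pow_le_pow_left (by norm_num) s
          _ ≤ 16 ^ s * m ^ 2 := Nat.le_mul_of_pos_right _ (by positivity))
      hj0 (by show 0 < 2 ^ (50 * m * 2 ^ s); positivity)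
      (by show 0 < 2 ^ (54 * m * 2 ^ s); positivity) rfl (l := l)
      (by
        show l < 20 * m * 2 ^ s
        have : 20 * m * 2 ^ s = 20 * (m * 2 ^ s) := by ring
        omega)
      (fun k' _ j hj => by
        unfold H132.actB
        rw [Nat.add_sub_cancel, hDl]
        exact H855.hcls_box N Z N.hM K.lo K.NB K.D0
          (fun _ => (fam m k cd n S ℓ μ B).P.J + K.pb) K.hD0 K.hn (K.sft_le hI w) K.hfin' hw h2
          hjn x hH hj0' hj)
      (fun k' _ hk' => by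
        rw [hDl]
        exact H855.hst_box Z N.hM K.lo K.NB K.D0
          (fun _ => (fam m k cd n S ℓ μ B).P.J + K.pb) K.hD0 K.hn (K.sft_le hI w) K.hfin' hw h2
          hjn x hH hj0' hk')
      (fun k' _ hk' => H855.hC_box hlT (by
        have := hk'.1
        rwa [one_mul] at this))
      (NR := nrQ m S n K.NB K.lo)
      (d := ((ℓ * Mm ^ (a * 2 ^ s + 2 ^ s) : ℕ) : ℝ) * Par.dlm m s) (by positivity) hx
      (by
        have e1 : (famMP m).Dl s ≤ 16 ^ S * m ^ 2 := by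
          show 16 ^ s * m ^ 2 ≤ 16 ^ S * m ^ 2
          exact Nat.mul_le_mul_right _ (Nat.pow_le_pow_right (by norm_num) hsS)
        have e2 : K.NB * 16 ^ (K.smax - s) * (famMP m).Dl s = K.NB * (16 ^ S * m ^ 2) := by
          show K.NB * 16 ^ (K.smax - s) * (16 ^ s * m ^ 2) = _
          rw [hsmax, ← mul_assoc, mul_assoc K.NB, ← pow_add, Nat.sub_add_cancel hsS, mul_assoc]
        have e3 : o < 16 ^ S * m ^ 2 := by
          rw [hsmax, hD0] at ho
          exact ho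
        refine rounds_le (B1 := ((K.lo.toNat + famH m n S + 16 ^ S * m ^ 2 : ℕ) : ℤ)) hoff hj0 e2
          ?_ ?_
        · have e4 := Int.self_le_toNat K.lo
          have e5 : (o : ℤ) ≤ ((16 ^ S * m ^ 2 : ℕ) : ℤ) := by exact_mod_cast e3.le
          rw [Nat.cast_add, Nat.cast_add]
          linarith [Int.natCast_nonneg ((H381.alongB (M := Mm) (ℓ := ℓ) (μ := μ) (B := B)
            (J := 2 ^ k - 1) (S := S + 1) (H := famH m n S) (n := n) C
            (H801.mach (famMP m) Mm ℓ μ B) (toRnd (fam m k cd n S ℓ μ B).P.J w) hI).S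
            (a * 2 ^ s + 2 ^ s) x)]
        · unfold nrQ
          have e6 : (((famMP m).Dl s : ℕ) : ℤ) ≤ ((16 ^ S * m ^ 2 : ℕ) : ℤ) := by
            exact_mod_cast e1
          have e7 : ((K.NB * (16 ^ S * m ^ 2) + K.lo.toNat + famH m n S +
              2 * (16 ^ S * m ^ 2) : ℕ) : ℤ) = ((K.NB * (16 ^ S * m ^ 2) : ℕ) : ℤ) +
              ((K.lo.toNat + famH m n S + 16 ^ S * m ^ 2 : ℕ) : ℤ) +
              ((16 ^ S * m ^ 2 : ℕ) : ℤ) := by
            push_cast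
            ring
          rw [e7]
          linarith)
      (by linarith)
      (by
        show 12 * 2 ^ l ≤ 2 ^ (2 * m * 2 ^ s)
        have e1 : 2 * m * 2 ^ s = 2 * (m * 2 ^ s) := by ring
        calc 12 * 2 ^ l ≤ 2 ^ 4 * 2 ^ l := Nat.mul_le_mul_right _ (by norm_num)
          _ = 2 ^ (4 + l) := by rw [pow_add]
          _ ≤ 2 ^ (2 * m * 2 ^ s) := Nat.pow_le_pow_right (by norm_num) (by omega))
      (by
        show 2 ^ (l + 3) ≤ 2 ^ (m * 2 ^ s + 5)
        exact Nat.pow_le_pow_right (by norm_num) (by omega))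
      (th := Par.dlm m s) hdl (by nlinarith) A hA
    have hDs : (K.sys hI w).D s = (famMP m).Dl s := hDl.symm
    rw [hDs]
    exact key

/-- **The rows of the query theorem**, for the family. -/
theorem rowsFam : H784.RowsFam fam 1452 := by
  refine rowsFam_of fun eps0 _ _ => ?_
  filter_upwards [clsRow_fam eps0] with m hm
  intro k cd n S ℓ μ B η hOK vis hid C K _ hI N hη hw _ hsmax _ hD0 _
  refine ⟨_, hm k cd n S ℓ μ B η hOK vis hid C K hI N hη hw hsmax hD0, ?_⟩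
  intro o s h1 h2 a ha x
  have hdl := Par.dlm_pos' m s
  have hℓ' : 0 < ℓ * (2 ^ (20 * m)) ^ (a * 2 ^ s + 2 ^ s) :=
    Nat.mul_pos hOK.hℓ (by positivity)
  have hℓR : (0 : ℝ) < ((ℓ * (2 ^ (20 * m)) ^ (a * 2 ^ s + 2 ^ s) : ℕ) : ℝ) := by
    exact_mod_cast hℓ'
  exact failTopA_fam vis hid (by omega) (by positivity) (Along.top_le ha) _ _ (by positivity)
    (by positivity) (le_of_eq (by ring))

/-- **The query theorem of the additive algorithm.** -/
theorem stmtQT_fam : StmtQT fam := H784.stmtQT_of_rows (by norm_num) rowsFam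

end Vale.Agent.P315.H508
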