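import Vale.Agent.P315.H508.CapSum
import Vale.Agent.P315.H784.Concl

/-! P315, numbers of the query theorem (`C/Stmt.lean`, `StmtQT`): `M = 2 ^ (20 m)`,
`J + 1 = 2 ^ k`, cut `J n / 2 - n / cd`. -/

set_option autoImplicit false

open Filter Finset

namespace Vale.Agent.P315.H508

/-! ### The range of the jitters -/

/-- Exponent of `J + 1`. -/
def kJ (K1 m : ℕ) : ℕ := m + Nat.clog 2 (K1 * m ^ 2)

theorem le_two_pow_kJ (K1 m : ℕ) : K1 * m ^ 2 * 2 ^ m ≤ 2 ^ kJ K1 m := by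
  unfold kJ
  rw [pow_add, mul_comm]
  exact Nat.mul_le_mul_left _ (Nat.le_pow_clog (by norm_num) _)

theorem two_pow_kJ_le {K1 m : ℕ} (hK1 : 1 ≤ K1) (hm : 1 ≤ m) :
    2 ^ kJ K1 m ≤ 2 * K1 * m ^ 2 * 2 ^ m := by
  unfold kJ
  have h0 : 1 ≤ K1 * m ^ 2 := Nat.mul_pos hK1 (by positivity)
  have h1 : 2 ^ Nat.clog 2 (K1 * m ^ 2) ≤ 2 * (K1 * m ^ 2) := by
    rcases Nat.lt_or_ge 1 (K1 * m ^ 2) with h | h
    · have h2 := (Nat.pow_pred_clog_lt_self (b := 2) (by norm_num) h).le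
      have h3 : 0 < Nat.clog 2 (K1 * m ^ 2) := Nat.clog_pos (by norm_num) h
      obtain ⟨r, hr⟩ : ∃ r, Nat.clog 2 (K1 * m ^ 2) = r + 1 :=
        ⟨Nat.clog 2 (K1 * m ^ 2) - 1, by omega⟩
      rw [hr] at h2 ⊢
      rw [Nat.pred_eq_sub_one, Nat.add_sub_cancel] at h2
      rw [pow_succ]
      omega
    · have h2 : K1 * m ^ 2 = 1 := by omega
      rw [h2]
      simp
  rw [pow_add]
  calc 2 ^ m * 2 ^ Nat.clog 2 (K1 * m ^ 2) ≤ 2 ^ m * (2 * (K1 * m ^ 2)) :=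
        Nat.mul_le_mul_left _ h1
    _ = 2 * K1 * m ^ 2 * 2 ^ m := by ring

/-! ### The lanes in the area bound -/

/-- The hypothesis `hC` of the area bound, for numbers of machines `≤ K m^a A^s 2^(9 m 2^s)`. -/
theorem hC_small (K1 K A a : ℕ) (hK1 : 1 ≤ K1) {c : ℝ} (hc : 0 < c) :
    ∀ᶠ m : ℕ in atTop, ∀ (S : ℕ) (cnt : ℕ → ℕ) (J : ℕ),
      K1 * m ^ 2 * 2 ^ m ≤ J + 1 → J + 1 ≤ 2 * K1 * m ^ 2 * 2 ^ m →
      (∀ s, s < S → cnt s ≤ K * m ^ a * A ^ s * 2 ^ (9 * (m * 2 ^ s))) →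
      ∑ s ∈ range S, 3 * ((cnt s * 2 ^ s : ℕ) : ℝ) * Real.exp (4 * c / (J : ℝ) ^ 2 * 2 ^ s) /
        ((2 ^ (20 * m) : ℕ) : ℝ) ^ 2 ^ s ≤ c ^ 2 / (J : ℝ) ^ 2 := by
  filter_upwards [lanes_small (2 * K1) 2 (by omega) hc, nat_poly_le K (A * 2) a,
    ev_two_pow_ge (1 + 2 * (c + 1)), eventually_ge_atTop 1] with m h1 h2 h3 hm S cnt J hJ1 hJ2 hcnt
  have hm2 : 1 ≤ m ^ 2 := Nat.one_le_pow _ _ hm
  have hJlow : (2 : ℝ) ^ m ≤ (J : ℝ) + 1 := by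
    have : 2 ^ m ≤ J + 1 := by
      refine le_trans ?_ hJ1
      calc 2 ^ m = 1 * 1 * 2 ^ m := by ring
        _ ≤ K1 * m ^ 2 * 2 ^ m := by gcongr
    exact_mod_cast this
  have hJc : 2 * (c + 1) ≤ (J : ℝ) := by linarith
  have hJpos : (0 : ℝ) < J := by linarith
  set lam : ℝ := 4 * c / (J : ℝ) ^ 2 with hlam
  have hlam1 : lam ≤ 1 := by
    rw [hlam, div_le_one (by positivity)]
    nlinarith
  -- the heights
  have hinj : Set.InjOn (fun s : ℕ => 2 ^ s) (range S : Set ℕ) := by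
    intro s _ t _ h
    exact Nat.pow_right_injective le_rfl h
  have key := h1 ((range S).image fun s => 2 ^ s) (fun h => cnt (Nat.log 2 h) * h) lam
    (fun h hh => by
      obtain ⟨s, hs, rfl⟩ := Finset.mem_image.1 hh
      refine ⟨Nat.one_le_two_pow, ?_⟩
      show cnt (Nat.log 2 (2 ^ s)) * 2 ^ s ≤ _
      rw [Nat.log_pow (by norm_num)]
      calc cnt s * 2 ^ s ≤ K * m ^ a * A ^ s * 2 ^ (9 * (m * 2 ^ s)) * 2 ^ s :=
            Nat.mul_le_mul_right _ (hcnt s (mem_range.1 hs))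
        _ = (K * m ^ a * (A * 2) ^ s) * 2 ^ (9 * (m * 2 ^ s)) := by rw [mul_pow]; ring
        _ ≤ 2 ^ (m * 2 ^ s) * 2 ^ (9 * (m * 2 ^ s)) := Nat.mul_le_mul_right _ (h2 s)
        _ = 2 ^ (10 * m * 2 ^ s) := by rw [← pow_add]; congr 1; ring) hlam1
  rw [Finset.sum_image hinj] at key
  have e1 : ∀ s ∈ range S, ((2 : ℕ) + 1 : ℝ) * ((cnt (Nat.log 2 (2 ^ s)) * 2 ^ s : ℕ) : ℝ) *
      Real.exp (lam * ((2 ^ s : ℕ) : ℝ)) / (((2 ^ (20 * m) : ℕ) : ℝ)) ^ 2 ^ s =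
      3 * ((cnt s * 2 ^ s : ℕ) : ℝ) * Real.exp (lam * 2 ^ s) /
        ((2 ^ (20 * m) : ℕ) : ℝ) ^ 2 ^ s := by
    intro s _
    rw [Nat.log_pow (by norm_num)]
    push_cast
    ring
  rw [Finset.sum_congr rfl e1] at key
  refine key.trans ?_
  have hJle : (J : ℝ) ≤ Jt (2 * K1) m := by
    have : J ≤ Jt (2 * K1) m := by unfold Jt; omega
    exact_mod_cast this
  exact div_le_div_of_nonneg_left (by positivity) (by positivity)
    (pow_le_pow_left₀ hJpos.le hJle 2)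

/-! ### Scales against levels -/

theorem log_small (p : ℕ) {η K : ℝ} (hη : 0 < η) :
    ∃ n0 : ℕ, ∀ n : ℕ, n0 ≤ n → K * ((6 * (Nat.log 2 (n + 2) + 2) : ℕ) : ℝ) ^ p ≤ η * n := by
  have h1 := Real.isLittleO_pow_log_id_atTop (n := p)
  have hk : 0 < η / (2 * ((|K| + 1) * 36 ^ p)) := by positivity
  have h2 := h1.bound hk
  rw [Filter.eventually_atTop] at h2
  obtain ⟨x0, hx0⟩ := h2
  refine ⟨max ⌈x0⌉₊ 6, fun n hn => ?_⟩
  have hn6 : 6 ≤ n := (le_max_right _ _).trans hn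
  have hx : x0 ≤ ((n + 2 : ℕ) : ℝ) := by
    have h3 : x0 ≤ (n : ℝ) := (Nat.le_ceil x0).trans (by exact_mod_cast (le_max_left _ _).trans hn)
    push_cast
    linarith
  have h3 := hx0 _ hx
  set y : ℝ := Real.log ((n + 2 : ℕ) : ℝ) with hy
  have hy2 : 2 ≤ y := by
    rw [hy, Real.le_log_iff_exp_le (by positivity)]
    have e1 : Real.exp 2 = Real.exp 1 * Real.exp 1 := by rw [← Real.exp_add]; norm_num
    have e2 := Real.exp_one_lt_d9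
    have e3 := Real.exp_pos 1
    have e4 : Real.exp 2 ≤ 8 := by rw [e1]; nlinarith
    have e5 : ((8 : ℕ) : ℝ) ≤ ((n + 2 : ℕ) : ℝ) := by exact_mod_cast (by omega : 8 ≤ n + 2)
    push_cast at e5 ⊢
    linarith
  have h4 : (Nat.log 2 (n + 2) : ℝ) ≤ 2 * y := by
    have h5 : (2 : ℝ) ^ (Nat.log 2 (n + 2)) ≤ ((n + 2 : ℕ) : ℝ) := by
      exact_mod_cast Nat.pow_log_le_self 2 (by omega)
    have h6 := Real.log_le_log (by positivity) h5
    rw [Real.log_pow] at h6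
    have h7 := Real.log_two_gt_d9
    have h8 : (0 : ℝ) ≤ Nat.log 2 (n + 2) := by positivity
    nlinarith
  have h5 : ((6 * (Nat.log 2 (n + 2) + 2) : ℕ) : ℝ) ≤ 36 * y := by
    push_cast
    linarith
  have hy0 : 0 ≤ y := by linarith
  have habs : |((n + 2 : ℕ) : ℝ)| = ((n + 2 : ℕ) : ℝ) := abs_of_nonneg (Nat.cast_nonneg _)
  rw [Real.norm_eq_abs, Real.norm_eq_abs, id, abs_of_nonneg (pow_nonneg hy0 p), habs] at h3
  have h6 : ((6 * (Nat.log 2 (n + 2) + 2) : ℕ) : ℝ) ^ p ≤ 36 ^ p * y ^ p := by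
    rw [← mul_pow]
    exact pow_le_pow_left₀ (by positivity) h5 p
  have h7 : ((n + 2 : ℕ) : ℝ) ≤ 2 * n := by
    have : n + 2 ≤ 2 * n := by omega
    exact_mod_cast this
  have h8 : 0 < (|K| + 1) * (36 : ℝ) ^ p := by positivity
  calc K * ((6 * (Nat.log 2 (n + 2) + 2) : ℕ) : ℝ) ^ p
      ≤ (|K| + 1) * (36 ^ p * y ^ p) := by
        refine mul_le_mul ?_ h6 (by positivity) (by positivity)
        have := le_abs_self K
        linarith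
    _ = (|K| + 1) * 36 ^ p * y ^ p := by ring
    _ ≤ (|K| + 1) * 36 ^ p * (η / (2 * ((|K| + 1) * 36 ^ p)) * ((n + 2 : ℕ) : ℝ)) :=
        mul_le_mul_of_nonneg_left h3 h8.le
    _ = η / 2 * ((n + 2 : ℕ) : ℝ) := by field_simp
    _ ≤ η / 2 * (2 * n) := mul_le_mul_of_nonneg_left h7 (by positivity)
    _ = η * n := by ring

/-- Every fixed power of `2 ^ S` is small against the number of levels. -/
theorem scale_small (p : ℕ) {η K : ℝ} (hη : 0 < η) (hK : 0 ≤ K) :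
    ∃ n0 : ℕ, ∀ n : ℕ, n0 ≤ n → ∀ S : ℕ, 2 ^ S ≤ 6 * (Nat.log 2 (n + 2) + 2) →
      K * ((2 : ℝ) ^ S) ^ p ≤ η * n := by
  obtain ⟨n0, h⟩ := log_small p (K := K) hη
  refine ⟨n0, fun n hn S hS => le_trans ?_ (h n hn)⟩
  refine mul_le_mul_of_nonneg_left (pow_le_pow_left₀ (by positivity) ?_ p) hK
  exact_mod_cast hS

theorem sqrt_small {η : ℝ} (hη : 0 < η) (K : ℝ) :
    ∃ n0 : ℕ, ∀ n : ℕ, n0 ≤ n → K * Real.sqrt n ≤ η * n := by
  refine ⟨⌈(K / η) ^ 2⌉₊, fun n hn => ?_⟩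
  have h1 : (K / η) ^ 2 ≤ n := (Nat.le_ceil _).trans (by exact_mod_cast hn)
  have h2 : K / η ≤ Real.sqrt n := Real.le_sqrt_of_sq_le h1
  have h3 : K ≤ η * Real.sqrt n := by
    rw [div_le_iff₀ hη] at h2
    linarith
  have h4 : Real.sqrt n * Real.sqrt n = n := Real.mul_self_sqrt (Nat.cast_nonneg n)
  have h5 := mul_le_mul_of_nonneg_right h3 (Real.sqrt_nonneg n)
  nlinarith

theorem const_small {η : ℝ} (hη : 0 < η) (K : ℝ) :
    ∃ n0 : ℕ, ∀ n : ℕ, n0 ≤ n → K ≤ η * n := by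
  refine ⟨⌈K / η⌉₊, fun n hn => ?_⟩
  have h1 : K / η ≤ n := (Nat.le_ceil _).trans (by exact_mod_cast hn)
  rw [div_le_iff₀ hη] at h1
  linarith

/-- Numbers exponential in `2 ^ S` are polynomial in `n`. -/
theorem two_pow_scale_le {n S : ℕ} (hS : 2 ^ S ≤ 6 * (Nat.log 2 (n + 2) + 2)) (C : ℕ) {s : ℕ}
    (hs : s ≤ S) : 2 ^ (C * 2 ^ s) ≤ 2 ^ (12 * C) * (n + 2) ^ (6 * C) := by
  have h1 : 2 ^ (C * 2 ^ s) ≤ 2 ^ (C * (6 * (Nat.log 2 (n + 2) + 2))) :=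
    Nat.pow_le_pow_right (by norm_num)
      (Nat.mul_le_mul_left _ ((Nat.pow_le_pow_right (by norm_num) hs).trans hS))
  refine h1.trans ?_
  have h2 : C * (6 * (Nat.log 2 (n + 2) + 2)) = 12 * C + Nat.log 2 (n + 2) * (6 * C) := by ring
  have h3 : n + 2 ≠ 0 := Nat.succ_ne_zero _
  rw [h2, pow_add, pow_mul 2 (Nat.log 2 (n + 2))]
  exact Nat.mul_le_mul_left _ (Nat.pow_le_pow_left (Nat.pow_log_le_self 2 h3) _)

/-- The loss of the instances is below every power of the nets. -/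
theorem eta_small (C : ℕ) {n S : ℕ} {η : ℝ} (h0 : 0 ≤ η)
    (hS : 2 ^ S ≤ 6 * (Nat.log 2 (n + 2) + 2))
    (hη : ((2 ^ (12 * C) : ℕ) : ℝ) * ((n : ℝ) + 2) ^ (2 ^ (12 * C)) * η ≤ 1) {s : ℕ} (hs : s ≤ S) :
    η ≤ (1 / 2) ^ (C * 2 ^ s) := by
  have h1 := two_pow_scale_le hS C hs
  have h2 : (2 : ℝ) ^ (C * 2 ^ s) ≤ 2 ^ (12 * C) * ((n : ℝ) + 2) ^ (6 * C) := by exact_mod_cast h1
  have h3 : 6 * C ≤ 2 ^ (12 * C) := by
    have := Nat.lt_two_pow_self (n := 12 * C)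
    omega
  have h4 : ((n : ℝ) + 2) ^ (6 * C) ≤ ((n : ℝ) + 2) ^ (2 ^ (12 * C)) := by
    refine pow_le_pow_right₀ ?_ h3
    have : (0 : ℝ) ≤ n := Nat.cast_nonneg n
    linarith
  have h5 : (2 : ℝ) ^ (C * 2 ^ s) * η ≤ 1 := by
    refine le_trans ?_ hη
    refine mul_le_mul_of_nonneg_right (h2.trans ?_) h0
    push_cast
    exact mul_le_mul_of_nonneg_left h4 (by positivity)
  rw [one_div_pow, le_div_iff₀ (by positivity)]
  linarith

/-! ### The cut -/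

/-- The index of the root. -/
def NQ (J n cd : ℕ) : ℤ := ((J * n / 2 : ℕ) : ℤ) - ((n / cd : ℕ) : ℤ)

theorem NQ_le {J n cd : ℕ} (hcd : 1 ≤ cd) (hn : 2 * cd ≤ n) :
    (NQ J n cd : ℝ) ≤ ((J : ℝ) / 2 - 1 / (2 * cd)) * n := by
  have e0 : (NQ J n cd : ℝ) = ((J * n / 2 : ℕ) : ℝ) - ((n / cd : ℕ) : ℝ) := by
    unfold NQ
    rw [Int.cast_sub, Int.cast_natCast, Int.cast_natCast]
  rw [e0]
  have h1 : ((J * n / 2 : ℕ) : ℝ) ≤ (J : ℝ) * n / 2 := by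
    have := Nat.cast_div_le (α := ℝ) (m := J * n) (n := 2)
    push_cast at this
    exact this
  have hc : (0 : ℝ) < cd := by exact_mod_cast hcd
  have h2 : (n : ℝ) / cd - 1 ≤ ((n / cd : ℕ) : ℝ) := by
    have h3 := Nat.lt_div_mul_add (a := n) (b := cd) (by omega)
    have h4 : (n : ℝ) ≤ ((n / cd : ℕ) : ℝ) * cd + cd := by exact_mod_cast h3.le
    rw [sub_le_iff_le_add, div_le_iff₀ hc]
    linarith
  have h5 : (1 : ℝ) ≤ n / (2 * cd) := by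
    rw [le_div_iff₀ (by positivity)]
    have : ((2 * cd : ℕ) : ℝ) ≤ n := by exact_mod_cast hn
    push_cast at this
    linarith
  have h6 : (n : ℝ) / cd = 2 * (n / (2 * cd)) := by field_simp
  have h7 : ((J : ℝ) / 2 - 1 / (2 * cd)) * n = J * n / 2 - n / (2 * cd) := by ring
  rw [h7]
  linarith

theorem le_NQ (J n cd : ℕ) :
    (n : ℝ) * J / 2 - NQ J n cd ≤ n / cd + 1 := by
  have e0 : (NQ J n cd : ℝ) = ((J * n / 2 : ℕ) : ℝ) - ((n / cd : ℕ) : ℝ) := by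
    unfold NQ
    rw [Int.cast_sub, Int.cast_natCast, Int.cast_natCast]
  rw [e0]
  have h1 : (J : ℝ) * n / 2 - 1 ≤ ((J * n / 2 : ℕ) : ℝ) := by
    have h3 := Nat.lt_div_mul_add (a := J * n) (b := 2) (by omega)
    have h4 : ((J * n : ℕ) : ℝ) ≤ ((J * n / 2 : ℕ) : ℝ) * 2 + 2 := by exact_mod_cast h3.le
    push_cast at h4
    linarith
  have h2 : ((n / cd : ℕ) : ℝ) ≤ n / cd := Nat.cast_div_le
  linarith

end Vale.Agent.P315.H508
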